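import Mathlib

/-!
# P075 helper: Burkholder's function for `p = 3`

`U x y = |y|^3 - 3 |y| x^2 - 2 |x|^3 = (|y| - 2|x|) (|x| + |y|)^2`.
-/

namespace Vale.Agent.Lib.P075

/-- Burkholder's special function for `p = 3` (up to the factor `4/3`). -/
noncomputable def U (x y : ℝ) : ℝ := |y| ^ 3 - 3 * |y| * x ^ 2 - 2 * |x| ^ 3

lemma U_neg_left (x y : ℝ) : U (-x) y = U x y := by
  unfold U
  rw [abs_neg, neg_sq]

lemma U_neg_right (x y : ℝ) : U x (-y) = U x y := by
  unfold U
  rw [abs_neg]

lemma U_zero_right (x : ℝ) : U x 0 ≤ 0 := by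
  unfold U
  have h : 0 ≤ |x| ^ 3 := pow_nonneg (abs_nonneg x) 3
  simp only [abs_zero]
  nlinarith

lemma U_major (x y : ℝ) : |y| ^ 3 - 8 * |x| ^ 3 ≤ 4 / 3 * U x y := by
  unfold U
  have hx : x ^ 2 = |x| ^ 2 := (sq_abs x).symm
  rw [hx]
  have hr : 0 ≤ |y| := abs_nonneg y
  have hs : 0 ≤ |x| := abs_nonneg x
  nlinarith [mul_nonneg (sq_nonneg (|y| - 2 * |x|)) (add_nonneg hr (mul_nonneg (by norm_num : (0:ℝ) ≤ 4) hs))]

lemma U_core (a b d k : ℝ) (ha : 0 ≤ a) (hb : 0 ≤ b) (hd : 0 ≤ d) (hk : |k| ≤ d) :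
    U (a + d) (b + k) + U (a - d) (b - k) ≤ 2 * U a b := by
  obtain ⟨hk1, hk2⟩ := abs_le.mp hk
  unfold U
  rw [abs_of_nonneg (add_nonneg ha hd), abs_of_nonneg ha, abs_of_nonneg hb]
  have t1 : 0 ≤ b * (d ^ 2 - k ^ 2) := mul_nonneg hb (by nlinarith)
  have t2 : 0 ≤ a * d * (k + d) := mul_nonneg (mul_nonneg ha hd) (by linarith)
  have hd3 : 0 ≤ d ^ 3 := pow_nonneg hd 3
  rcases le_total 0 (b + k) with h2 | h2
  · rcases le_total 0 (b - k) with h3 | h3
    · rw [abs_of_nonneg h2, abs_of_nonneg h3]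
      rcases le_total 0 (a - d) with h1 | h1
      · rw [abs_of_nonneg h1]
        nlinarith
      · rw [abs_of_nonpos h1]
        have t3 : 0 ≤ (d - a) ^ 3 := pow_nonneg (by linarith) 3
        nlinarith
    · rw [abs_of_nonneg h2, abs_of_nonpos h3]
      have hkb : 0 ≤ k - b := by linarith
      have hk0 : 0 ≤ k := by linarith
      have t3 : (k - b) ^ 3 ≤ d ^ 3 := pow_le_pow_left₀ hkb (by linarith) 3
      have t4 : 0 ≤ (k - b) * (a - d) ^ 2 := mul_nonneg hkb (sq_nonneg _)
      have t5 : 0 ≤ a * d * k := mul_nonneg (mul_nonneg ha hd) hk0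
      rcases le_total 0 (a - d) with h1 | h1
      · rw [abs_of_nonneg h1]
        have t6 : d * d * d ≤ a * d * d :=
          mul_le_mul_of_nonneg_right (mul_le_mul_of_nonneg_right (by linarith) hd) hd
        nlinarith
      · rw [abs_of_nonpos h1]
        have t6 : 0 ≤ a ^ 2 * (3 * d - a) := mul_nonneg (sq_nonneg a) (by linarith)
        nlinarith
  · rcases le_total 0 (b - k) with h3 | h3
    · rw [abs_of_nonpos h2, abs_of_nonneg h3]
      have hm : 0 ≤ -(b + k) := by linarith
      have hm2 : (-(b + k)) ^ 2 ≤ (a + d) ^ 2 := pow_le_pow_left₀ hm (by linarith) 2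
      have t3 : 0 ≤ (-(b + k)) * (3 * (a + d) ^ 2 - (-(b + k)) ^ 2) :=
        mul_nonneg hm (by nlinarith)
      rcases le_total 0 (a - d) with h1 | h1
      · rw [abs_of_nonneg h1]
        nlinarith
      · rw [abs_of_nonpos h1]
        have t4 : 0 ≤ (d - a) ^ 3 := pow_nonneg (by linarith) 3
        nlinarith
    · have hb0 : b = 0 := by linarith
      have hk0 : k = 0 := by linarith
      subst hb0 hk0
      simp only [add_zero, sub_zero, abs_zero]
      rcases le_total 0 (a - d) with h1 | h1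
      · rw [abs_of_nonneg h1]
        nlinarith [mul_nonneg ha hd, mul_nonneg (mul_nonneg ha hd) hd, mul_nonneg (mul_nonneg ha ha) hd]
      · rw [abs_of_nonpos h1]
        have t4 : 0 ≤ (d - a) ^ 3 := pow_nonneg (by linarith) 3
        nlinarith [mul_nonneg ha hd, mul_nonneg (mul_nonneg ha hd) hd, mul_nonneg (mul_nonneg ha ha) hd]

/-- Midpoint concavity of `U` along directions of slope at most one. -/
lemma U_midpoint (a b d k : ℝ) (hk : |k| ≤ |d|) :
    U (a + d) (b + k) + U (a - d) (b - k) ≤ 2 * U a b := by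
  -- reduce to `d ≥ 0`
  have key : ∀ a b d k : ℝ, 0 ≤ d → |k| ≤ d →
      U (a + d) (b + k) + U (a - d) (b - k) ≤ 2 * U a b := by
    intro a b d k hd hk
    -- reduce to `a ≥ 0`
    have key2 : ∀ a b k : ℝ, 0 ≤ a → |k| ≤ d →
        U (a + d) (b + k) + U (a - d) (b - k) ≤ 2 * U a b := by
      intro a b k ha hk
      rcases le_total 0 b with hb | hb
      · exact U_core a b d k ha hb hd hk
      · have h := U_core a (-b) d (-k) ha (by linarith) hd (by rwa [abs_neg])
        have e1 : U (a + d) (-b + -k) = U (a + d) (b + k) := by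
          rw [← neg_add, U_neg_right]
        have e2 : U (a - d) (-b - -k) = U (a - d) (b - k) := by
          rw [show -b - -k = -(b - k) by ring, U_neg_right]
        rw [e1, e2, U_neg_right] at h
        exact h
    rcases le_total 0 a with ha | ha
    · exact key2 a b k ha hk
    · have h := key2 (-a) b (-k) (by linarith) (by rwa [abs_neg])
      have e1 : U (-a + d) (b + -k) = U (a - d) (b - k) := by
        rw [show -a + d = -(a - d) by ring, U_neg_left, ← sub_eq_add_neg]
      have e2 : U (-a - d) (b - -k) = U (a + d) (b + k) := by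
        rw [show -a - d = -(a + d) by ring, U_neg_left, sub_neg_eq_add]
      rw [e1, e2, U_neg_left] at h
      linarith
  rcases le_total 0 d with hd | hd
  · exact key a b d k hd (by rwa [abs_of_nonneg hd] at hk)
  · have h := key a b (-d) (-k) (by linarith) (by rwa [abs_neg, ← abs_of_nonpos hd])
    have e1 : U (a + -d) (b + -k) = U (a - d) (b - k) := by
      rw [← sub_eq_add_neg, ← sub_eq_add_neg]
    have e2 : U (a - -d) (b - -k) = U (a + d) (b + k) := by
      rw [sub_neg_eq_add, sub_neg_eq_add]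
    rw [e1, e2] at h
    linarith

end Vale.Agent.Lib.P075
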