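import Mathlib
import Vale.Agent.Lib.P075.Burk

/-!
# P075 helper: dyadic martingale transforms on the box `[0, 2^M)` are bounded on `ℓ^3`
with constant `2` (Burkholder's inequality for `p = 3`, dyadic case).
-/

namespace Vale.Agent.Lib.P075

open Finset

/-! ### Arithmetic of dyadic blocks -/

lemma xor_pow_div_of_lt (x : ℕ) {i j : ℕ} (h : i < j) : (x ^^^ 2 ^ i) / 2 ^ j = x / 2 ^ j := by
  rw [Nat.xor_div_two_pow, Nat.div_eq_of_lt (Nat.pow_lt_pow_right (by norm_num) h), Nat.xor_zero]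

lemma xor_pow_div_self (x j : ℕ) : (x ^^^ 2 ^ j) / 2 ^ j = (x / 2 ^ j) ^^^ 1 := by
  rw [Nat.xor_div_two_pow, Nat.div_self (by positivity)]

lemma xor_one_div_two (q : ℕ) : (q ^^^ 1) / 2 = q / 2 := by
  rw [Nat.xor_div_two]
  simp

lemma xor_one_mod_two (q : ℕ) : (q ^^^ 1) % 2 = 1 ↔ ¬ (q % 2 = 1) := by
  rw [Nat.xor_mod_two_eq_one]
  simp

lemma div_two_eq_iff (p q : ℕ) : p / 2 = q / 2 ↔ (p = q ∨ p = q ^^^ 1) := by
  have h1 := xor_one_div_two q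
  have h2 := xor_one_mod_two q
  generalize q ^^^ 1 = r at h1 h2 ⊢
  constructor
  · intro h
    by_cases hq : q % 2 = 1
    · have : ¬ (r % 2 = 1) := fun hr => (h2.mp hr) hq
      omega
    · have : r % 2 = 1 := h2.mpr hq
      omega
  · rintro (h | h) <;> omega

lemma xor_one_ne (q : ℕ) : q ^^^ 1 ≠ q := by
  intro h
  have h2 := xor_one_mod_two q
  rw [h] at h2
  by_cases hq : q % 2 = 1
  · exact (h2.mp hq) hq
  · exact hq (h2.mpr hq)

lemma div_pow_succ (u j : ℕ) : u / 2 ^ (j + 1) = u / 2 ^ j / 2 := by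
  rw [pow_succ, Nat.div_div_eq_div_mul]

lemma xor_pow_lt {x j M : ℕ} (hx : x < 2 ^ M) (hj : j < M) : x ^^^ 2 ^ j < 2 ^ M :=
  Nat.xor_lt_two_pow hx (Nat.pow_lt_pow_right (by norm_num) hj)

lemma xor_pow_xor_pow (x j : ℕ) : (x ^^^ 2 ^ j) ^^^ 2 ^ j = x := by
  rw [Nat.xor_assoc, Nat.xor_self, Nat.xor_zero]

/-! ### Block sums -/

/-- The sum of `χ` over the dyadic block of length `2^j` containing `x`, inside `[0, 2^M)`. -/
noncomputable def blk (M : ℕ) (χ : ℕ → ℝ) (j x : ℕ) : ℝ :=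
  ∑ u ∈ range (2 ^ M), if u / 2 ^ j = x / 2 ^ j then χ u else 0

lemma blk_zero (M : ℕ) (χ : ℕ → ℝ) {x : ℕ} (hx : x < 2 ^ M) : blk M χ 0 x = χ x := by
  unfold blk
  simp only [pow_zero, Nat.div_one]
  rw [Finset.sum_ite_eq' (range (2 ^ M)) x χ]
  simp [hx]

lemma blk_flip (M : ℕ) (χ : ℕ → ℝ) {i j : ℕ} (h : i < j) (x : ℕ) :
    blk M χ j (x ^^^ 2 ^ i) = blk M χ j x := by
  unfold blk
  rw [xor_pow_div_of_lt x h]

lemma blk_succ (M : ℕ) (χ : ℕ → ℝ) (j x : ℕ) :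
    blk M χ (j + 1) x = blk M χ j x + blk M χ j (x ^^^ 2 ^ j) := by
  unfold blk
  rw [← Finset.sum_add_distrib]
  apply Finset.sum_congr rfl
  intro u _
  rw [xor_pow_div_self, div_pow_succ, div_pow_succ]
  have h1 := div_two_eq_iff (u / 2 ^ j) (x / 2 ^ j)
  have h2 := xor_one_ne (x / 2 ^ j)
  by_cases ha : u / 2 ^ j = x / 2 ^ j
  · have hb : ¬ (u / 2 ^ j = x / 2 ^ j ^^^ 1) := by
      rw [ha]; exact fun h => h2 h.symm
    rw [if_pos (h1.mpr (Or.inl ha)), if_pos ha, if_neg hb, add_zero]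
  · by_cases hb : u / 2 ^ j = x / 2 ^ j ^^^ 1
    · rw [if_pos (h1.mpr (Or.inr hb)), if_neg ha, if_pos hb, zero_add]
    · have hc : ¬ (u / 2 ^ j / 2 = x / 2 ^ j / 2) := fun h => by
        rcases h1.mp h with h | h
        · exact ha h
        · exact hb h
      rw [if_neg hc, if_neg ha, if_neg hb, add_zero]

/-- The martingale difference at scale `j + 1` (block form): `E_j χ - E_{j+1} χ`. -/
noncomputable def dlt (M : ℕ) (χ : ℕ → ℝ) (j x : ℕ) : ℝ :=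
  (2 * blk M χ j x - blk M χ (j + 1) x) / 2 ^ (j + 1)

lemma dlt_flip_self (M : ℕ) (χ : ℕ → ℝ) (j x : ℕ) :
    dlt M χ j (x ^^^ 2 ^ j) = - dlt M χ j x := by
  unfold dlt
  rw [blk_flip M χ (Nat.lt_succ_self j) x, blk_succ M χ j x]
  have h := blk_succ M χ j (x ^^^ 2 ^ j)
  rw [xor_pow_xor_pow] at h
  ring

lemma dlt_flip (M : ℕ) (χ : ℕ → ℝ) {i j : ℕ} (h : i < j) (x : ℕ) :
    dlt M χ j (x ^^^ 2 ^ i) = dlt M χ j x := by
  unfold dlt
  rw [blk_flip M χ h x, blk_flip M χ (Nat.lt_succ_of_lt h) x]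

/-- The martingale transform on the box: `∑_{j ∈ S} e_j Δ_{j+1} χ`. -/
noncomputable def Tbox (M : ℕ) (χ : ℕ → ℝ) (S : Finset ℕ) (e : ℕ → ℝ) (x : ℕ) : ℝ :=
  ∑ j ∈ S, e j * dlt M χ j x

/-- Partial transform: only scales `≥ j`. -/
noncomputable def Gj (M : ℕ) (χ : ℕ → ℝ) (S : Finset ℕ) (e : ℕ → ℝ) (j x : ℕ) : ℝ :=
  ∑ i ∈ S, if j ≤ i then e i * dlt M χ i x else 0

/-- Block averages. -/
noncomputable def Fj (M : ℕ) (χ : ℕ → ℝ) (j x : ℕ) : ℝ := blk M χ j x / 2 ^ j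

lemma Fj_step (M : ℕ) (χ : ℕ → ℝ) (j x : ℕ) :
    Fj M χ j x = Fj M χ (j + 1) x + dlt M χ j x := by
  unfold Fj dlt
  have h : (2 : ℝ) ^ j ≠ 0 := by positivity
  rw [pow_succ]
  field_simp
  ring

lemma Gj_step (M : ℕ) (χ : ℕ → ℝ) (S : Finset ℕ) (e : ℕ → ℝ) (j x : ℕ) :
    Gj M χ S e j x = Gj M χ S e (j + 1) x + (if j ∈ S then e j else 0) * dlt M χ j x := by
  unfold Gj
  have h : ∀ i ∈ S, (if j ≤ i then e i * dlt M χ i x else 0) =
      (if j + 1 ≤ i then e i * dlt M χ i x else 0) + (if i = j then e i * dlt M χ i x else 0) := by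
    intro i _
    by_cases h1 : j + 1 ≤ i
    · have h2 : j ≤ i := by omega
      have h3 : i ≠ j := by omega
      rw [if_pos h1, if_pos h2, if_neg h3, add_zero]
    · by_cases h3 : i = j
      · subst h3
        rw [if_neg h1, if_pos le_rfl, if_pos rfl, zero_add]
      · have h2 : ¬ j ≤ i := by omega
        rw [if_neg h1, if_neg h2, if_neg h3, add_zero]
  rw [Finset.sum_congr rfl h, Finset.sum_add_distrib, Finset.sum_ite_eq' S j]
  by_cases hj : j ∈ S <;> simp [hj]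

lemma Fj_flip (M : ℕ) (χ : ℕ → ℝ) (j x : ℕ) :
    Fj M χ (j + 1) (x ^^^ 2 ^ j) = Fj M χ (j + 1) x := by
  unfold Fj
  rw [blk_flip M χ (Nat.lt_succ_self j) x]

lemma Gj_flip (M : ℕ) (χ : ℕ → ℝ) (S : Finset ℕ) (e : ℕ → ℝ) (j x : ℕ) :
    Gj M χ S e (j + 1) (x ^^^ 2 ^ j) = Gj M χ S e (j + 1) x := by
  unfold Gj
  apply Finset.sum_congr rfl
  intro i _
  by_cases h1 : j + 1 ≤ i
  · rw [if_pos h1, if_pos h1, dlt_flip M χ (by omega : j < i) x]
  · rw [if_neg h1, if_neg h1]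

/-- The Burkholder functional at level `j`. -/
noncomputable def Phi (M : ℕ) (χ : ℕ → ℝ) (S : Finset ℕ) (e : ℕ → ℝ) (j : ℕ) : ℝ :=
  ∑ x ∈ range (2 ^ M), U (Fj M χ j x) (Gj M χ S e j x)

lemma sum_flip (M : ℕ) {j : ℕ} (hj : j < M) (f : ℕ → ℝ) :
    ∑ x ∈ range (2 ^ M), f (x ^^^ 2 ^ j) = ∑ x ∈ range (2 ^ M), f x := by
  apply Finset.sum_nbij' (fun x => x ^^^ 2 ^ j) (fun x => x ^^^ 2 ^ j)
  · intro x hx
    rw [Finset.mem_range] at hx ⊢
    exact xor_pow_lt hx hj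
  · intro x hx
    rw [Finset.mem_range] at hx ⊢
    exact xor_pow_lt hx hj
  · intro x _
    exact xor_pow_xor_pow x j
  · intro x _
    exact xor_pow_xor_pow x j
  · intro x _
    rfl

lemma Phi_step (M : ℕ) (χ : ℕ → ℝ) (S : Finset ℕ) (e : ℕ → ℝ) (he : ∀ j ∈ S, |e j| ≤ 1)
    {j : ℕ} (hj : j < M) : Phi M χ S e j ≤ Phi M χ S e (j + 1) := by
  have h1 : Phi M χ S e j =
      ∑ x ∈ range (2 ^ M), U (Fj M χ j (x ^^^ 2 ^ j)) (Gj M χ S e j (x ^^^ 2 ^ j)) :=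
    (sum_flip M hj (fun x => U (Fj M χ j x) (Gj M χ S e j x))).symm
  have h2 : 2 * Phi M χ S e j ≤ 2 * Phi M χ S e (j + 1) := by
    have h3 : 2 * Phi M χ S e j = ∑ x ∈ range (2 ^ M),
        (U (Fj M χ j x) (Gj M χ S e j x) +
          U (Fj M χ j (x ^^^ 2 ^ j)) (Gj M χ S e j (x ^^^ 2 ^ j))) := by
      rw [Finset.sum_add_distrib, ← h1]
      unfold Phi
      ring
    rw [h3]
    unfold Phi
    rw [Finset.mul_sum]
    apply Finset.sum_le_sum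
    intro x _
    set ee : ℝ := if j ∈ S then e j else 0 with hee
    have hee1 : |ee| ≤ 1 := by
      rw [hee]
      by_cases hjS : j ∈ S
      · rw [if_pos hjS]; exact he j hjS
      · rw [if_neg hjS]; simp
    rw [Fj_step M χ j x, Gj_step M χ S e j x, Fj_step M χ j (x ^^^ 2 ^ j),
      Gj_step M χ S e j (x ^^^ 2 ^ j), Fj_flip, Gj_flip, dlt_flip_self]
    have hk : |ee * dlt M χ j x| ≤ |dlt M χ j x| := by
      rw [abs_mul]
      calc |ee| * |dlt M χ j x| ≤ 1 * |dlt M χ j x| :=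
            mul_le_mul_of_nonneg_right hee1 (abs_nonneg _)
        _ = |dlt M χ j x| := one_mul _
    have hmid := U_midpoint (Fj M χ (j + 1) x) (Gj M χ S e (j + 1) x) (dlt M χ j x)
      (ee * dlt M χ j x) hk
    have e1 : Fj M χ (j + 1) x + -dlt M χ j x = Fj M χ (j + 1) x - dlt M χ j x := by ring
    have e2 : Gj M χ S e (j + 1) x + ee * -dlt M χ j x =
        Gj M χ S e (j + 1) x - ee * dlt M χ j x := by ring
    rw [e1, e2]
    exact hmid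
  linarith

lemma Phi_mono (M : ℕ) (χ : ℕ → ℝ) (S : Finset ℕ) (e : ℕ → ℝ) (he : ∀ j ∈ S, |e j| ≤ 1)
    (j : ℕ) (hj : j ≤ M) : Phi M χ S e 0 ≤ Phi M χ S e j := by
  induction j with
  | zero => exact le_rfl
  | succ j ih =>
    exact (ih (by omega)).trans (Phi_step M χ S e he (by omega))

lemma Phi_top (M : ℕ) (χ : ℕ → ℝ) (S : Finset ℕ) (e : ℕ → ℝ) (hS : ∀ j ∈ S, j < M) :
    Phi M χ S e M ≤ 0 := by
  unfold Phi
  apply Finset.sum_nonpos
  intro x _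
  have h : Gj M χ S e M x = 0 := by
    unfold Gj
    apply Finset.sum_eq_zero
    intro i hi
    rw [if_neg (by have := hS i hi; omega)]
  rw [h]
  exact U_zero_right _

lemma Phi_zero (M : ℕ) (χ : ℕ → ℝ) (S : Finset ℕ) (e : ℕ → ℝ) :
    Phi M χ S e 0 = ∑ x ∈ range (2 ^ M), U (χ x) (Tbox M χ S e x) := by
  unfold Phi
  apply Finset.sum_congr rfl
  intro x hx
  rw [Finset.mem_range] at hx
  have h1 : Fj M χ 0 x = χ x := by
    unfold Fj
    rw [blk_zero M χ hx]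
    simp
  have h2 : Gj M χ S e 0 x = Tbox M χ S e x := by
    unfold Gj Tbox
    apply Finset.sum_congr rfl
    intro i _
    rw [if_pos (Nat.zero_le i)]
  rw [h1, h2]

/-- **Burkholder's inequality (p = 3, dyadic, on a box).** -/
theorem burkholder_box (M : ℕ) (χ : ℕ → ℝ) (S : Finset ℕ) (e : ℕ → ℝ)
    (hS : ∀ j ∈ S, j < M) (he : ∀ j ∈ S, |e j| ≤ 1) :
    ∑ x ∈ range (2 ^ M), |Tbox M χ S e x| ^ 3 ≤ 8 * ∑ x ∈ range (2 ^ M), |χ x| ^ 3 := by
  have h1 : Phi M χ S e 0 ≤ 0 := (Phi_mono M χ S e he M le_rfl).trans (Phi_top M χ S e hS)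
  rw [Phi_zero] at h1
  have h2 : ∑ x ∈ range (2 ^ M), (|Tbox M χ S e x| ^ 3 - 8 * |χ x| ^ 3) ≤
      ∑ x ∈ range (2 ^ M), 4 / 3 * U (χ x) (Tbox M χ S e x) :=
    Finset.sum_le_sum fun x _ => U_major _ _
  rw [← Finset.mul_sum, Finset.sum_sub_distrib, ← Finset.mul_sum] at h2
  linarith

end Vale.Agent.Lib.P075
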