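import Mathlib
import Vale.Agent.Lib.P075.Dyadic

/-!
# P075 helper: further facts on dyadic block sums
-/

namespace Vale.Agent.Lib.P075

open Finset

lemma blk_eq_of_div_eq (M : ℕ) (χ : ℕ → ℝ) {j x y : ℕ} (h : x / 2 ^ j = y / 2 ^ j) :
    blk M χ j x = blk M χ j y := by
  unfold blk
  rw [h]

lemma div_pow_eq_of_le {u x i j : ℕ} (hij : i ≤ j) (h : u / 2 ^ i = x / 2 ^ i) :
    u / 2 ^ j = x / 2 ^ j := by
  obtain ⟨d, rfl⟩ := Nat.exists_eq_add_of_le hij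
  rw [pow_add, ← Nat.div_div_eq_div_mul, ← Nat.div_div_eq_div_mul, h]

lemma blk_congr (M : ℕ) {χ χ' : ℕ → ℝ} {j x : ℕ}
    (h : ∀ u < 2 ^ M, u / 2 ^ j = x / 2 ^ j → χ u = χ' u) : blk M χ j x = blk M χ' j x := by
  unfold blk
  apply Finset.sum_congr rfl
  intro u hu
  rw [mem_range] at hu
  by_cases hc : u / 2 ^ j = x / 2 ^ j
  · rw [if_pos hc, if_pos hc, h u hu hc]
  · rw [if_neg hc, if_neg hc]

lemma blk_mono (M : ℕ) {χ χ' : ℕ → ℝ} {j x : ℕ}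
    (h : ∀ u < 2 ^ M, u / 2 ^ j = x / 2 ^ j → χ u ≤ χ' u) : blk M χ j x ≤ blk M χ' j x := by
  unfold blk
  apply Finset.sum_le_sum
  intro u hu
  rw [mem_range] at hu
  by_cases hc : u / 2 ^ j = x / 2 ^ j
  · rw [if_pos hc, if_pos hc]
    exact h u hu hc
  · rw [if_neg hc, if_neg hc]

lemma blk_add (M : ℕ) (χ χ' : ℕ → ℝ) (j x : ℕ) :
    blk M (fun u => χ u + χ' u) j x = blk M χ j x + blk M χ' j x := by
  unfold blk
  rw [← Finset.sum_add_distrib]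
  apply Finset.sum_congr rfl
  intro u _
  split_ifs <;> simp

lemma blk_const_mul (M : ℕ) (c : ℝ) (χ : ℕ → ℝ) (j x : ℕ) :
    blk M (fun u => c * χ u) j x = c * blk M χ j x := by
  unfold blk
  rw [Finset.mul_sum]
  apply Finset.sum_congr rfl
  intro u _
  split_ifs <;> simp

lemma blk_sum (M : ℕ) {ι : Type*} (s : Finset ι) (χ : ι → ℕ → ℝ) (j x : ℕ) :
    blk M (fun u => ∑ i ∈ s, χ i u) j x = ∑ i ∈ s, blk M (χ i) j x := by
  unfold blk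
  rw [Finset.sum_comm]
  apply Finset.sum_congr rfl
  intro u _
  split_ifs
  · rfl
  · simp

lemma blk_zero_fun (M : ℕ) (j x : ℕ) : blk M (fun _ => (0 : ℝ)) j x = 0 := by
  unfold blk
  simp

lemma blk_nonneg (M : ℕ) {χ : ℕ → ℝ} {j x : ℕ}
    (h : ∀ u < 2 ^ M, u / 2 ^ j = x / 2 ^ j → 0 ≤ χ u) : 0 ≤ blk M χ j x := by
  have := blk_mono M (χ := fun _ => (0 : ℝ)) (χ' := χ) (j := j) (x := x) h
  rwa [blk_zero_fun] at this

lemma blk_one (M : ℕ) : ∀ j : ℕ, j ≤ M → ∀ x < 2 ^ M, blk M (fun _ => (1 : ℝ)) j x = 2 ^ j := by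
  intro j
  induction j with
  | zero =>
    intro _ x hx
    rw [blk_zero M _ hx, pow_zero]
  | succ j ih =>
    intro hj x hx
    rw [blk_succ, ih (by omega) x hx, ih (by omega) _ (xor_pow_lt hx (by omega)), pow_succ]
    ring

lemma blk_top (M : ℕ) (χ : ℕ → ℝ) : blk M χ M 0 = ∑ u ∈ range (2 ^ M), χ u := by
  unfold blk
  apply Finset.sum_congr rfl
  intro u hu
  rw [mem_range] at hu
  rw [if_pos]
  rw [Nat.div_eq_of_lt hu, Nat.zero_div]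

lemma blk_const_on (M : ℕ) {χ : ℕ → ℝ} {c : ℝ} {j x : ℕ} (hj : j ≤ M) (hx : x < 2 ^ M)
    (h : ∀ u < 2 ^ M, u / 2 ^ j = x / 2 ^ j → χ u = c) : blk M χ j x = c * 2 ^ j := by
  rw [blk_congr M (χ' := fun _ => c * 1) (by intro u hu hc; rw [h u hu hc, mul_one]),
    blk_const_mul, blk_one M j hj x hx]

lemma blk_local (M : ℕ) {χ χ' : ℕ → ℝ} {i j x u : ℕ} (hij : i ≤ j) (hu : u / 2 ^ j = x / 2 ^ j)
    (h : ∀ v < 2 ^ M, v / 2 ^ j = x / 2 ^ j → χ v = χ' v) : blk M χ i u = blk M χ' i u := by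
  apply blk_congr
  intro v hv hvu
  exact h v hv ((div_pow_eq_of_le hij hvu).trans hu)

lemma dlt_local (M : ℕ) {χ χ' : ℕ → ℝ} {i j x u : ℕ} (hij : i + 1 ≤ j)
    (hu : u / 2 ^ j = x / 2 ^ j)
    (h : ∀ v < 2 ^ M, v / 2 ^ j = x / 2 ^ j → χ v = χ' v) : dlt M χ i u = dlt M χ' i u := by
  unfold dlt
  rw [blk_local M (by omega : i ≤ j) hu h, blk_local M hij hu h]

lemma dlt_eq_of_div_eq (M : ℕ) (χ : ℕ → ℝ) {j x y : ℕ} (h : x / 2 ^ j = y / 2 ^ j) :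
    dlt M χ j x = dlt M χ j y := by
  unfold dlt
  rw [blk_eq_of_div_eq M χ h, blk_eq_of_div_eq M χ (div_pow_eq_of_le (Nat.le_succ j) h)]

lemma Fj_eq_of_div_eq (M : ℕ) (χ : ℕ → ℝ) {j x y : ℕ} (h : x / 2 ^ j = y / 2 ^ j) :
    Fj M χ j x = Fj M χ j y := by
  unfold Fj
  rw [blk_eq_of_div_eq M χ h]

lemma dlt_const_on (M : ℕ) {χ : ℕ → ℝ} {c : ℝ} {i j x u : ℕ} (hij : i + 1 ≤ j) (hj : j ≤ M)
    (hu : u < 2 ^ M) (hux : u / 2 ^ j = x / 2 ^ j)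
    (h : ∀ v < 2 ^ M, v / 2 ^ j = x / 2 ^ j → χ v = c) : dlt M χ i u = 0 := by
  unfold dlt
  rw [blk_const_on M (c := c) (by omega) hu
      (fun v hv hvu => h v hv ((div_pow_eq_of_le (by omega) hvu).trans hux)),
    blk_const_on M (c := c) (by omega) hu
      (fun v hv hvu => h v hv ((div_pow_eq_of_le hij hvu).trans hux))]
  rw [pow_succ]
  ring

lemma Tbox_filter_succ (M : ℕ) (χ : ℕ → ℝ) (S : Finset ℕ) (e : ℕ → ℝ) (j x : ℕ) :
    Tbox M χ (S.filter (· < j + 1)) e x =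
      Tbox M χ (S.filter (· < j)) e x + (if j ∈ S then e j * dlt M χ j x else 0) := by
  unfold Tbox
  rw [Finset.sum_filter, Finset.sum_filter, ← Finset.sum_ite_eq' S j (fun i => e i * dlt M χ i x),
    ← Finset.sum_add_distrib]
  apply Finset.sum_congr rfl
  intro i _
  by_cases h1 : i < j
  · have h2 : i < j + 1 := by omega
    have h3 : ¬ (i = j) := by omega
    rw [if_pos h1, if_pos h2, if_neg h3, add_zero]
  · by_cases h3 : i = j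
    · have h2 : i < j + 1 := by omega
      rw [if_neg h1, if_pos h2, if_pos h3, zero_add]
    · have h2 : ¬ (i < j + 1) := by omega
      rw [if_neg h1, if_neg h2, if_neg h3, add_zero]

lemma Tbox_filter_zero (M : ℕ) (χ : ℕ → ℝ) (S : Finset ℕ) (e : ℕ → ℝ) (x : ℕ) :
    Tbox M χ (S.filter (· < 0)) e x = 0 := by
  unfold Tbox
  apply Finset.sum_eq_zero
  intro i hi
  rw [Finset.mem_filter] at hi
  omega

lemma Tbox_local (M : ℕ) (S : Finset ℕ) (e : ℕ → ℝ) {χ χ' : ℕ → ℝ} {j x u : ℕ}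
    (hu : u / 2 ^ j = x / 2 ^ j)
    (h : ∀ v < 2 ^ M, v / 2 ^ j = x / 2 ^ j → χ v = χ' v) :
    Tbox M χ (S.filter (· < j)) e u = Tbox M χ' (S.filter (· < j)) e u := by
  unfold Tbox
  apply Finset.sum_congr rfl
  intro i hi
  rw [Finset.mem_filter] at hi
  rw [dlt_local M (by omega) hu h]

lemma Fj_le_two_mul (M : ℕ) {χ : ℕ → ℝ} (hχ : ∀ u < 2 ^ M, 0 ≤ χ u) (j x : ℕ) :
    Fj M χ j x ≤ 2 * Fj M χ (j + 1) x := by
  unfold Fj
  rw [blk_succ, pow_succ]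
  have h1 : 0 ≤ blk M χ j (x ^^^ 2 ^ j) := blk_nonneg M fun u hu _ => hχ u hu
  have h2 : (0 : ℝ) < 2 ^ j := by positivity
  rw [show 2 * ((blk M χ j x + blk M χ j (x ^^^ 2 ^ j)) / (2 ^ j * 2)) =
    (blk M χ j x + blk M χ j (x ^^^ 2 ^ j)) / 2 ^ j by field_simp]
  exact div_le_div_of_nonneg_right (by linarith) h2.le

lemma Fj_nonneg (M : ℕ) {χ : ℕ → ℝ} (hχ : ∀ u < 2 ^ M, 0 ≤ χ u) (j x : ℕ) : 0 ≤ Fj M χ j x := by
  unfold Fj
  exact div_nonneg (blk_nonneg M fun u hu _ => hχ u hu) (by positivity)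

lemma Fj_zero (M : ℕ) (χ : ℕ → ℝ) {x : ℕ} (hx : x < 2 ^ M) : Fj M χ 0 x = χ x := by
  unfold Fj
  rw [blk_zero M χ hx]
  simp

end Vale.Agent.Lib.P075
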