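import Mathlib

/-!
# P075: the dyadic triangular Hilbert form on step functions

A function `F : ℕ → ℕ → ℝ` restricted to `{0,…,2^n-1}²` is viewed as the real function on
`[0,2^n)²` that equals `F x y` on the unit square `[x,x+1) × [y,y+1)`.
-/

namespace Vale.Agent.Lib.P075

open Finset

/-- The value at the integer point `x` of the Haar function `h_I` of the dyadic interval `I`
of length `2^k` (`k ≥ 1`) that contains `x`: `+1` on the left half of `I`, `-1` on the right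
half. -/
noncomputable def haarSign (k x : ℕ) : ℝ := if x.testBit (k - 1) then -1 else 1

/-- The scale-`k` part `∑_{I ∈ A_k} L_I(F₀,F₁,F₂)` of the dyadic triangular Hilbert form for
step functions: the sum runs over integer points `(x₀,x₁,x₂)` of `[0,2^n)³` whose dyadic
intervals of length `2^k` have indices `x_v / 2^k` with bitwise XOR equal to `0`. -/
noncomputable def scaleForm (n k : ℕ) (F0 F1 F2 : ℕ → ℕ → ℝ) : ℝ :=
  (1 / 2 : ℝ) ^ k * ∑ x0 ∈ range (2 ^ n), ∑ x1 ∈ range (2 ^ n), ∑ x2 ∈ range (2 ^ n),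
    if (x0 / 2 ^ k) ^^^ (x1 / 2 ^ k) ^^^ (x2 / 2 ^ k) = 0 then
      F0 x0 x1 * F1 x1 x2 * F2 x2 x0 * (haarSign k x0 * haarSign k x1 * haarSign k x2)
    else 0

/-- The dyadic triangular Hilbert form `Λ^d_{S,ε}(F₀,F₁,F₂) = ∑_{k ∈ S} ε_k ∑_{I ∈ A_k} L_I`
on step functions. -/
noncomputable def dyadicForm (n : ℕ) (S : Finset ℕ) (ε : ℕ → ℝ) (F0 F1 F2 : ℕ → ℕ → ℝ) : ℝ :=
  ∑ k ∈ S, ε k * scaleForm n k F0 F1 F2

/-- The cube of the `L^3` norm of the step function `F` on `[0,2^n)²`. -/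
noncomputable def normCube (n : ℕ) (F : ℕ → ℕ → ℝ) : ℝ :=
  ∑ x ∈ range (2 ^ n), ∑ y ∈ range (2 ^ n), |F x y| ^ 3

/-- On the box `{0,…,2^n-1}²`, `F` is an elementary tensor `F(x,y) = f(x) g(y)`. -/
def IsTensorOn (n : ℕ) (F : ℕ → ℕ → ℝ) : Prop :=
  ∃ f g : ℕ → ℝ, ∀ x < 2 ^ n, ∀ y < 2 ^ n, F x y = f x * g y

end Vale.Agent.Lib.P075
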