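import Mathlib

/-!
# P075 helper: the three-function Hölder inequality with exponents `(3,3,3)` for finite sums
-/

namespace Vale.Agent.Lib.P075

open Finset

lemma amgm3 (x y z : ℝ) (hx : 0 ≤ x) (hy : 0 ≤ y) (hz : 0 ≤ z) :
    3 * (x * y * z) ≤ x ^ 3 + y ^ 3 + z ^ 3 := by
  have h1 : 0 ≤ x ^ 2 + y ^ 2 + z ^ 2 - x * y - y * z - z * x := by
    nlinarith [sq_nonneg (x - y), sq_nonneg (y - z), sq_nonneg (z - x)]
  have h2 := mul_nonneg (add_nonneg (add_nonneg hx hy) hz) h1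
  nlinarith

lemma exists_cube_root (A : ℝ) (hA : 0 ≤ A) : ∃ α : ℝ, 0 ≤ α ∧ α ^ 3 = A :=
  ⟨A ^ ((3 : ℕ)⁻¹ : ℝ), Real.rpow_nonneg hA _, Real.rpow_inv_natCast_pow hA (by norm_num)⟩

lemma holder3_nonneg {ι : Type*} (s : Finset ι) (a b c : ι → ℝ)
    (ha : ∀ i ∈ s, 0 ≤ a i) (hb : ∀ i ∈ s, 0 ≤ b i) (hc : ∀ i ∈ s, 0 ≤ c i) :
    (∑ i ∈ s, a i * b i * c i) ^ 3 ≤
      (∑ i ∈ s, a i ^ 3) * (∑ i ∈ s, b i ^ 3) * (∑ i ∈ s, c i ^ 3) := by
  have hA : 0 ≤ ∑ i ∈ s, a i ^ 3 := Finset.sum_nonneg fun i hi => pow_nonneg (ha i hi) 3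
  have hB : 0 ≤ ∑ i ∈ s, b i ^ 3 := Finset.sum_nonneg fun i hi => pow_nonneg (hb i hi) 3
  have hC : 0 ≤ ∑ i ∈ s, c i ^ 3 := Finset.sum_nonneg fun i hi => pow_nonneg (hc i hi) 3
  -- a vanishing factor forces the left side to vanish
  have hzero : ∀ (a b c : ι → ℝ), (∀ i ∈ s, 0 ≤ a i) → (∑ i ∈ s, a i ^ 3) = 0 →
      ∀ i ∈ s, a i = 0 := by
    intro a b c ha h0 i hi
    have h1 := (Finset.sum_eq_zero_iff_of_nonneg fun i hi => pow_nonneg (ha i hi) 3).mp h0 i hi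
    exact pow_eq_zero_iff (by norm_num) |>.mp h1
  by_cases hA0 : (∑ i ∈ s, a i ^ 3) = 0
  · have h1 : ∑ i ∈ s, a i * b i * c i = 0 :=
      Finset.sum_eq_zero fun i hi => by rw [hzero a b c ha hA0 i hi]; ring
    rw [h1, hA0]; simp
  by_cases hB0 : (∑ i ∈ s, b i ^ 3) = 0
  · have h1 : ∑ i ∈ s, a i * b i * c i = 0 :=
      Finset.sum_eq_zero fun i hi => by rw [hzero b a c hb hB0 i hi]; ring
    rw [h1, hB0]; simp
  by_cases hC0 : (∑ i ∈ s, c i ^ 3) = 0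
  · have h1 : ∑ i ∈ s, a i * b i * c i = 0 :=
      Finset.sum_eq_zero fun i hi => by rw [hzero c a b hc hC0 i hi]; ring
    rw [h1, hC0]; simp
  obtain ⟨α, hα0, hα⟩ := exists_cube_root _ hA
  obtain ⟨β, hβ0, hβ⟩ := exists_cube_root _ hB
  obtain ⟨γ, hγ0, hγ⟩ := exists_cube_root _ hC
  have hαp : 0 < α := lt_of_le_of_ne hα0 (fun h => hA0 (by rw [← hα, ← h]; ring))
  have hβp : 0 < β := lt_of_le_of_ne hβ0 (fun h => hB0 (by rw [← hβ, ← h]; ring))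
  have hγp : 0 < γ := lt_of_le_of_ne hγ0 (fun h => hC0 (by rw [← hγ, ← h]; ring))
  have key : ∑ i ∈ s, a i * b i * c i ≤ α * β * γ := by
    have h1 : ∀ i ∈ s, a i * b i * c i ≤
        α * β * γ * ((a i ^ 3 / α ^ 3 + b i ^ 3 / β ^ 3 + c i ^ 3 / γ ^ 3) / 3) := by
      intro i hi
      have h2 := amgm3 (a i / α) (b i / β) (c i / γ) (div_nonneg (ha i hi) hα0)
        (div_nonneg (hb i hi) hβ0) (div_nonneg (hc i hi) hγ0)
      have h3 : a i * b i * c i = α * β * γ * (a i / α * (b i / β) * (c i / γ)) := by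
        field_simp
      rw [h3]
      apply mul_le_mul_of_nonneg_left _ (by positivity)
      rw [div_pow, div_pow, div_pow] at h2
      linarith
    calc ∑ i ∈ s, a i * b i * c i
        ≤ ∑ i ∈ s, α * β * γ * ((a i ^ 3 / α ^ 3 + b i ^ 3 / β ^ 3 + c i ^ 3 / γ ^ 3) / 3) :=
          Finset.sum_le_sum h1
      _ = α * β * γ * (((∑ i ∈ s, a i ^ 3) / α ^ 3 + (∑ i ∈ s, b i ^ 3) / β ^ 3 +
            (∑ i ∈ s, c i ^ 3) / γ ^ 3) / 3) := by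
          rw [← Finset.mul_sum, ← Finset.sum_div, Finset.sum_add_distrib, Finset.sum_add_distrib,
            Finset.sum_div, Finset.sum_div, Finset.sum_div]
      _ = α * β * γ := by
          rw [← hα, ← hβ, ← hγ]
          field_simp
          ring
  have hnn : 0 ≤ ∑ i ∈ s, a i * b i * c i :=
    Finset.sum_nonneg fun i hi => mul_nonneg (mul_nonneg (ha i hi) (hb i hi)) (hc i hi)
  calc (∑ i ∈ s, a i * b i * c i) ^ 3 ≤ (α * β * γ) ^ 3 := pow_le_pow_left₀ hnn key 3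
    _ = (∑ i ∈ s, a i ^ 3) * (∑ i ∈ s, b i ^ 3) * (∑ i ∈ s, c i ^ 3) := by
        rw [← hα, ← hβ, ← hγ]; ring

/-- Hölder's inequality with exponents `(3,3,3)`. -/
lemma holder3 {ι : Type*} (s : Finset ι) (a b c : ι → ℝ) :
    |∑ i ∈ s, a i * b i * c i| ^ 3 ≤
      (∑ i ∈ s, |a i| ^ 3) * (∑ i ∈ s, |b i| ^ 3) * (∑ i ∈ s, |c i| ^ 3) := by
  have h1 : |∑ i ∈ s, a i * b i * c i| ≤ ∑ i ∈ s, |a i| * |b i| * |c i| := by
    calc |∑ i ∈ s, a i * b i * c i| ≤ ∑ i ∈ s, |a i * b i * c i| := Finset.abs_sum_le_sum_abs _ _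
      _ = ∑ i ∈ s, |a i| * |b i| * |c i| := by
          apply Finset.sum_congr rfl
          intro i _
          rw [abs_mul, abs_mul]
  calc |∑ i ∈ s, a i * b i * c i| ^ 3 ≤ (∑ i ∈ s, |a i| * |b i| * |c i|) ^ 3 :=
        pow_le_pow_left₀ (abs_nonneg _) h1 3
    _ ≤ _ := holder3_nonneg s _ _ _ (fun i _ => abs_nonneg _) (fun i _ => abs_nonneg _)
        (fun i _ => abs_nonneg _)

end Vale.Agent.Lib.P075
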