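import Mathlib
import Vale.Agent.Lib.P075.Defs
import Vale.Agent.Lib.P075.Dyadic
import Vale.Agent.Lib.P075.Holder

/-!
# P075 helper: the dyadic triangular form with two elementary tensors
-/

namespace Vale.Agent.Lib.P075

open Finset

lemma haarSign_xor (k x y : ℕ) : haarSign k (x ^^^ y) = haarSign k x * haarSign k y := by
  unfold haarSign
  rw [Nat.testBit_xor]
  cases x.testBit (k - 1) <;> cases y.testBit (k - 1) <;> simp

lemma haarSign_mul_self (k x : ℕ) : haarSign k x * haarSign k x = 1 := by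
  unfold haarSign
  split_ifs <;> norm_num

/-- xor-translation is a bijection of `[0, 2^n)` -/
lemma sum_xor (n : ℕ) {a : ℕ} (ha : a < 2 ^ n) (f : ℕ → ℝ) :
    ∑ x ∈ range (2 ^ n), f (a ^^^ x) = ∑ x ∈ range (2 ^ n), f x := by
  apply Finset.sum_nbij' (fun x => a ^^^ x) (fun x => a ^^^ x)
  · intro x hx
    rw [mem_range] at hx ⊢
    exact Nat.xor_lt_two_pow ha hx
  · intro x hx
    rw [mem_range] at hx ⊢
    exact Nat.xor_lt_two_pow ha hx
  · intro x _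
    exact Nat.xor_xor_cancel_left a x
  · intro x _
    exact Nat.xor_xor_cancel_left a x
  · intro x _
    rfl

/-- The auxiliary function `χ(u) = ∑_{x₀} f₀(x₀) g₁(x₀ ⊕ u) F₂(x₀ ⊕ u, x₀)`. -/
noncomputable def chi (n : ℕ) (f0 g1 : ℕ → ℝ) (F2 : ℕ → ℕ → ℝ) (u : ℕ) : ℝ :=
  ∑ x0 ∈ range (2 ^ n), f0 x0 * g1 (x0 ^^^ u) * F2 (x0 ^^^ u) x0

/-- `χ` extended by zero outside `[0, 2^n)`. -/
noncomputable def chi' (n : ℕ) (f0 g1 : ℕ → ℝ) (F2 : ℕ → ℕ → ℝ) (u : ℕ) : ℝ :=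
  if u < 2 ^ n then chi n f0 g1 F2 u else 0

lemma haar_link (M : ℕ) (χ : ℕ → ℝ) (j y : ℕ) :
    haarSign (j + 1) y * ∑ u ∈ range (2 ^ M),
        (if u / 2 ^ (j + 1) = y / 2 ^ (j + 1) then haarSign (j + 1) u * χ u else 0) =
      2 * blk M χ j y - blk M χ (j + 1) y := by
  unfold blk
  rw [Finset.mul_sum, Finset.mul_sum, ← Finset.sum_sub_distrib]
  apply Finset.sum_congr rfl
  intro u _
  unfold haarSign
  simp only [Nat.add_sub_cancel, Nat.testBit_eq_decide_div_mod_eq, decide_eq_true_eq]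
  rw [div_pow_succ, div_pow_succ]
  generalize u / 2 ^ j = p
  generalize y / 2 ^ j = q
  by_cases h1 : p = q
  · subst h1
    simp only [if_true]
    split_ifs <;> ring
  · by_cases h2 : p / 2 = q / 2
    · by_cases hp : p % 2 = 1
      · have hq : ¬ (q % 2 = 1) := by omega
        simp only [if_pos h2, if_neg h1, if_pos hp, if_neg hq]
        ring
      · have hq : q % 2 = 1 := by omega
        simp only [if_pos h2, if_neg h1, if_neg hp, if_pos hq]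
        ring
    · simp only [if_neg h2, if_neg h1]
      ring

lemma scaleForm_tensor (n j M : ℕ) (hM : n ≤ M) (f0 g0 f1 g1 : ℕ → ℝ) (F2 : ℕ → ℕ → ℝ) :
    scaleForm n (j + 1) (fun x y => f0 x * g0 y) (fun x y => f1 x * g1 y) F2 =
      ∑ x1 ∈ range (2 ^ n), g0 x1 * f1 x1 * dlt M (chi' n f0 g1 F2) j x1 := by
  unfold scaleForm
  rw [Finset.sum_comm, Finset.mul_sum]
  apply Finset.sum_congr rfl
  intro x1 _
  have hinner : ∀ x0 ∈ range (2 ^ n),
      (∑ x2 ∈ range (2 ^ n),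
        if (x0 / 2 ^ (j + 1)) ^^^ (x1 / 2 ^ (j + 1)) ^^^ (x2 / 2 ^ (j + 1)) = 0 then
          f0 x0 * g0 x1 * (f1 x1 * g1 x2) * F2 x2 x0 *
            (haarSign (j + 1) x0 * haarSign (j + 1) x1 * haarSign (j + 1) x2)
        else 0) =
      ∑ u ∈ range (2 ^ n), g0 x1 * f1 x1 * haarSign (j + 1) x1 *
        (if u / 2 ^ (j + 1) = x1 / 2 ^ (j + 1) then
          haarSign (j + 1) u * (f0 x0 * g1 (x0 ^^^ u) * F2 (x0 ^^^ u) x0) else 0) := by
    intro x0 hx0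
    rw [mem_range] at hx0
    rw [← sum_xor n hx0]
    apply Finset.sum_congr rfl
    intro u _
    have hc : ((x0 / 2 ^ (j + 1)) ^^^ (x1 / 2 ^ (j + 1)) ^^^ ((x0 ^^^ u) / 2 ^ (j + 1)) = 0) ↔
        (u / 2 ^ (j + 1) = x1 / 2 ^ (j + 1)) := by
      rw [Nat.xor_div_two_pow]
      generalize x0 / 2 ^ (j + 1) = a
      generalize x1 / 2 ^ (j + 1) = b
      generalize u / 2 ^ (j + 1) = c
      rw [Nat.xor_comm a b, Nat.xor_assoc, Nat.xor_xor_cancel_left, Nat.xor_eq_zero_iff]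
      exact eq_comm
    by_cases h : u / 2 ^ (j + 1) = x1 / 2 ^ (j + 1)
    · rw [if_pos (hc.mpr h), if_pos h, haarSign_xor]
      have hsq := haarSign_mul_self (j + 1) x0
      linear_combination (f0 x0 * g0 x1 * (f1 x1 * g1 (x0 ^^^ u)) * F2 (x0 ^^^ u) x0 *
        haarSign (j + 1) x1 * haarSign (j + 1) u) * hsq
    · rw [if_neg (fun h' => h (hc.mp h')), if_neg h, mul_zero]
  rw [Finset.sum_congr rfl hinner, Finset.sum_comm]
  have h2 : ∀ u ∈ range (2 ^ n),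
      (∑ x0 ∈ range (2 ^ n), g0 x1 * f1 x1 * haarSign (j + 1) x1 *
        (if u / 2 ^ (j + 1) = x1 / 2 ^ (j + 1) then
          haarSign (j + 1) u * (f0 x0 * g1 (x0 ^^^ u) * F2 (x0 ^^^ u) x0) else 0)) =
      g0 x1 * f1 x1 * haarSign (j + 1) x1 *
        (if u / 2 ^ (j + 1) = x1 / 2 ^ (j + 1) then
          haarSign (j + 1) u * chi' n f0 g1 F2 u else 0) := by
    intro u hu
    rw [mem_range] at hu
    rw [← Finset.mul_sum]
    congr 1
    by_cases h : u / 2 ^ (j + 1) = x1 / 2 ^ (j + 1)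
    · simp only [if_pos h]
      rw [← Finset.mul_sum]
      unfold chi' chi
      rw [if_pos hu]
    · simp only [if_neg h]
      simp
  rw [Finset.sum_congr rfl h2, ← Finset.mul_sum]
  have h3 : ∑ u ∈ range (2 ^ n), (if u / 2 ^ (j + 1) = x1 / 2 ^ (j + 1) then
        haarSign (j + 1) u * chi' n f0 g1 F2 u else 0) =
      ∑ u ∈ range (2 ^ M), (if u / 2 ^ (j + 1) = x1 / 2 ^ (j + 1) then
        haarSign (j + 1) u * chi' n f0 g1 F2 u else 0) := by
    apply Finset.sum_subset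
    · intro u hu
      rw [mem_range] at hu ⊢
      exact lt_of_lt_of_le hu (Nat.pow_le_pow_right (by norm_num) hM)
    · intro u _ hu
      rw [mem_range] at hu
      unfold chi'
      rw [if_neg hu]
      simp
  rw [h3, mul_assoc (g0 x1 * f1 x1), haar_link]
  unfold dlt
  rw [one_div, inv_pow, div_eq_mul_inv]
  ring

lemma dyadicForm_tensor (n M : ℕ) (hM : n ≤ M) (S : Finset ℕ) (ε : ℕ → ℝ)
    (hS : ∀ k ∈ S, 1 ≤ k) (f0 g0 f1 g1 : ℕ → ℝ) (F2 : ℕ → ℕ → ℝ) :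
    dyadicForm n S ε (fun x y => f0 x * g0 y) (fun x y => f1 x * g1 y) F2 =
      ∑ x1 ∈ range (2 ^ n), g0 x1 * f1 x1 *
        Tbox M (chi' n f0 g1 F2) (S.image fun k => k - 1) (fun j => ε (j + 1)) x1 := by
  unfold dyadicForm Tbox
  have hinj : Set.InjOn (fun k : ℕ => k - 1) (S : Set ℕ) := by
    intro a ha b hb hab
    have h1 := hS a ha
    have h2 := hS b hb
    simp only at hab
    omega
  have h1 : ∀ x1 ∈ range (2 ^ n),
      g0 x1 * f1 x1 * ∑ j ∈ S.image fun k => k - 1, ε (j + 1) * dlt M (chi' n f0 g1 F2) j x1 =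
      ∑ k ∈ S, ε k * (g0 x1 * f1 x1 * dlt M (chi' n f0 g1 F2) (k - 1) x1) := by
    intro x1 _
    rw [Finset.sum_image hinj, Finset.mul_sum]
    apply Finset.sum_congr rfl
    intro k hk
    have hk1 : k - 1 + 1 = k := Nat.sub_add_cancel (hS k hk)
    rw [hk1]
    ring
  rw [Finset.sum_congr rfl h1, Finset.sum_comm]
  apply Finset.sum_congr rfl
  intro k hk
  have hk1 : k - 1 + 1 = k := Nat.sub_add_cancel (hS k hk)
  rw [← Finset.mul_sum]
  congr 1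
  rw [← scaleForm_tensor n (k - 1) M hM, hk1]

lemma normCube_tensor (n : ℕ) (f g : ℕ → ℝ) :
    normCube n (fun x y => f x * g y) =
      (∑ x ∈ range (2 ^ n), |f x| ^ 3) * (∑ y ∈ range (2 ^ n), |g y| ^ 3) := by
  unfold normCube
  rw [Finset.sum_mul_sum]
  apply Finset.sum_congr rfl
  intro x _
  apply Finset.sum_congr rfl
  intro y _
  rw [abs_mul, mul_pow]

lemma sum_chi_le (n : ℕ) (f0 g1 : ℕ → ℝ) (F2 : ℕ → ℕ → ℝ) :
    ∑ u ∈ range (2 ^ n), |chi n f0 g1 F2 u| ^ 3 ≤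
      (∑ x ∈ range (2 ^ n), |f0 x| ^ 3) * (∑ x ∈ range (2 ^ n), |g1 x| ^ 3) * normCube n F2 := by
  have h1 : ∀ u ∈ range (2 ^ n), |chi n f0 g1 F2 u| ^ 3 ≤
      (∑ x ∈ range (2 ^ n), |f0 x| ^ 3) * (∑ x ∈ range (2 ^ n), |g1 x| ^ 3) *
        ∑ x0 ∈ range (2 ^ n), |F2 (x0 ^^^ u) x0| ^ 3 := by
    intro u hu
    rw [mem_range] at hu
    have h := holder3 (range (2 ^ n)) f0 (fun x0 => g1 (x0 ^^^ u)) (fun x0 => F2 (x0 ^^^ u) x0)
    have h2 : ∑ x0 ∈ range (2 ^ n), |g1 (x0 ^^^ u)| ^ 3 = ∑ x ∈ range (2 ^ n), |g1 x| ^ 3 := by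
      rw [← sum_xor n hu (fun x => |g1 x| ^ 3)]
      apply Finset.sum_congr rfl
      intro x _
      rw [Nat.xor_comm]
    rw [h2] at h
    exact h
  calc ∑ u ∈ range (2 ^ n), |chi n f0 g1 F2 u| ^ 3
      ≤ ∑ u ∈ range (2 ^ n), (∑ x ∈ range (2 ^ n), |f0 x| ^ 3) *
          (∑ x ∈ range (2 ^ n), |g1 x| ^ 3) * ∑ x0 ∈ range (2 ^ n), |F2 (x0 ^^^ u) x0| ^ 3 :=
        Finset.sum_le_sum h1
    _ = (∑ x ∈ range (2 ^ n), |f0 x| ^ 3) * (∑ x ∈ range (2 ^ n), |g1 x| ^ 3) *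
          normCube n F2 := by
        rw [← Finset.mul_sum]
        congr 1
        unfold normCube
        rw [Finset.sum_comm]
        rw [Finset.sum_comm (f := fun x y => |F2 x y| ^ 3)]
        apply Finset.sum_congr rfl
        intro x0 hx0
        rw [mem_range] at hx0
        exact sum_xor n hx0 (fun y => |F2 y x0| ^ 3)

/-- The main estimate when `F₀` and `F₁` are elementary tensors. -/
theorem form_bound_tensor01 (n : ℕ) (S : Finset ℕ) (ε : ℕ → ℝ)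
    (hS : ∀ k ∈ S, 1 ≤ k) (hε : ∀ k ∈ S, |ε k| ≤ 1) (f0 g0 f1 g1 : ℕ → ℝ) (F2 : ℕ → ℕ → ℝ) :
    |dyadicForm n S ε (fun x y => f0 x * g0 y) (fun x y => f1 x * g1 y) F2| ^ 3 ≤
      8 * normCube n (fun x y => f0 x * g0 y) * normCube n (fun x y => f1 x * g1 y) *
        normCube n F2 := by
  set M := n + S.sup id with hMdef
  have hM : n ≤ M := Nat.le_add_right _ _
  set χ := chi' n f0 g1 F2 with hχ
  set S' := S.image fun k => k - 1 with hS'
  set e : ℕ → ℝ := fun j => ε (j + 1) with he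
  rw [dyadicForm_tensor n M hM S ε hS, normCube_tensor, normCube_tensor]
  have hS'M : ∀ j ∈ S', j < M := by
    intro j hj
    rw [hS', Finset.mem_image] at hj
    obtain ⟨k, hk, rfl⟩ := hj
    have h1 := hS k hk
    have h2 : k ≤ S.sup id := Finset.le_sup (f := id) hk
    omega
  have he1 : ∀ j ∈ S', |e j| ≤ 1 := by
    intro j hj
    rw [hS', Finset.mem_image] at hj
    obtain ⟨k, hk, rfl⟩ := hj
    have h1 := hS k hk
    have h2 : k - 1 + 1 = k := Nat.sub_add_cancel h1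
    rw [he]
    simp only
    rw [h2]
    exact hε k hk
  have hb := burkholder_box M χ S' e hS'M he1
  have hsub : range (2 ^ n) ⊆ range (2 ^ M) := by
    intro u hu
    rw [mem_range] at hu ⊢
    exact lt_of_lt_of_le hu (Nat.pow_le_pow_right (by norm_num) hM)
  have h1 : ∑ x ∈ range (2 ^ n), |Tbox M χ S' e x| ^ 3 ≤ ∑ x ∈ range (2 ^ M), |Tbox M χ S' e x| ^ 3 :=
    Finset.sum_le_sum_of_subset_of_nonneg hsub fun x _ _ => pow_nonneg (abs_nonneg _) 3
  have h2 : ∑ x ∈ range (2 ^ M), |χ x| ^ 3 = ∑ u ∈ range (2 ^ n), |chi n f0 g1 F2 u| ^ 3 := by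
    symm
    apply Finset.sum_subset_zero_on_sdiff hsub
    · intro u hu
      rw [Finset.mem_sdiff, mem_range, mem_range] at hu
      rw [hχ]
      unfold chi'
      rw [if_neg hu.2]
      simp
    · intro u hu
      rw [mem_range] at hu
      rw [hχ]
      unfold chi'
      rw [if_pos hu]
  have h3 := sum_chi_le n f0 g1 F2
  have h4 := holder3 (range (2 ^ n)) g0 f1 (fun x => Tbox M χ S' e x)
  have hA : 0 ≤ ∑ x ∈ range (2 ^ n), |g0 x| ^ 3 :=
    Finset.sum_nonneg fun x _ => pow_nonneg (abs_nonneg _) 3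
  have hB : 0 ≤ ∑ x ∈ range (2 ^ n), |f1 x| ^ 3 :=
    Finset.sum_nonneg fun x _ => pow_nonneg (abs_nonneg _) 3
  have h5 : ∑ x ∈ range (2 ^ n), |Tbox M χ S' e x| ^ 3 ≤
      8 * ((∑ x ∈ range (2 ^ n), |f0 x| ^ 3) * (∑ x ∈ range (2 ^ n), |g1 x| ^ 3) *
        normCube n F2) := by
    calc ∑ x ∈ range (2 ^ n), |Tbox M χ S' e x| ^ 3
        ≤ ∑ x ∈ range (2 ^ M), |Tbox M χ S' e x| ^ 3 := h1
      _ ≤ 8 * ∑ x ∈ range (2 ^ M), |χ x| ^ 3 := hb
      _ = 8 * ∑ u ∈ range (2 ^ n), |chi n f0 g1 F2 u| ^ 3 := by rw [h2]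
      _ ≤ _ := by linarith
  calc |∑ x1 ∈ range (2 ^ n), g0 x1 * f1 x1 * Tbox M χ S' e x1| ^ 3
      ≤ (∑ x ∈ range (2 ^ n), |g0 x| ^ 3) * (∑ x ∈ range (2 ^ n), |f1 x| ^ 3) *
          ∑ x ∈ range (2 ^ n), |Tbox M χ S' e x| ^ 3 := h4
    _ ≤ (∑ x ∈ range (2 ^ n), |g0 x| ^ 3) * (∑ x ∈ range (2 ^ n), |f1 x| ^ 3) *
          (8 * ((∑ x ∈ range (2 ^ n), |f0 x| ^ 3) * (∑ x ∈ range (2 ^ n), |g1 x| ^ 3) *
            normCube n F2)) :=
        mul_le_mul_of_nonneg_left h5 (mul_nonneg hA hB)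
    _ = _ := by ring

end Vale.Agent.Lib.P075
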