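import Mathlib
import Vale.Agent.Lib.P075.Defs
import Vale.Agent.Lib.P075.Form

/-!
# P075 helper: cyclic symmetry of the dyadic triangular form, and the two-tensor bound
-/

namespace Vale.Agent.Lib.P075

open Finset

lemma scaleForm_cyc (n k : ℕ) (F0 F1 F2 : ℕ → ℕ → ℝ) :
    scaleForm n k F0 F1 F2 = scaleForm n k F1 F2 F0 := by
  unfold scaleForm
  congr 1
  rw [Finset.sum_comm]
  apply Finset.sum_congr rfl
  intro x1 _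
  rw [Finset.sum_comm]
  apply Finset.sum_congr rfl
  intro x2 _
  apply Finset.sum_congr rfl
  intro x0 _
  have hc : ((x0 / 2 ^ k) ^^^ (x1 / 2 ^ k) ^^^ (x2 / 2 ^ k) = 0) ↔
      ((x1 / 2 ^ k) ^^^ (x2 / 2 ^ k) ^^^ (x0 / 2 ^ k) = 0) := by
    rw [Nat.xor_comm ((x1 / 2 ^ k) ^^^ (x2 / 2 ^ k)) (x0 / 2 ^ k), Nat.xor_assoc]
  by_cases h : (x0 / 2 ^ k) ^^^ (x1 / 2 ^ k) ^^^ (x2 / 2 ^ k) = 0
  · rw [if_pos h, if_pos (hc.mp h)]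
    ring
  · rw [if_neg h, if_neg (fun h' => h (hc.mpr h'))]

lemma dyadicForm_cyc (n : ℕ) (S : Finset ℕ) (ε : ℕ → ℝ) (F0 F1 F2 : ℕ → ℕ → ℝ) :
    dyadicForm n S ε F0 F1 F2 = dyadicForm n S ε F1 F2 F0 := by
  unfold dyadicForm
  apply Finset.sum_congr rfl
  intro k _
  rw [scaleForm_cyc]

lemma scaleForm_congr (n k : ℕ) {F0 F0' F1 F1' F2 F2' : ℕ → ℕ → ℝ}
    (h0 : ∀ x < 2 ^ n, ∀ y < 2 ^ n, F0 x y = F0' x y)
    (h1 : ∀ x < 2 ^ n, ∀ y < 2 ^ n, F1 x y = F1' x y)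
    (h2 : ∀ x < 2 ^ n, ∀ y < 2 ^ n, F2 x y = F2' x y) :
    scaleForm n k F0 F1 F2 = scaleForm n k F0' F1' F2' := by
  unfold scaleForm
  congr 1
  apply Finset.sum_congr rfl
  intro x0 hx0
  apply Finset.sum_congr rfl
  intro x1 hx1
  apply Finset.sum_congr rfl
  intro x2 hx2
  rw [mem_range] at hx0 hx1 hx2
  rw [h0 x0 hx0 x1 hx1, h1 x1 hx1 x2 hx2, h2 x2 hx2 x0 hx0]

lemma dyadicForm_congr (n : ℕ) (S : Finset ℕ) (ε : ℕ → ℝ) {F0 F0' F1 F1' F2 F2' : ℕ → ℕ → ℝ}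
    (h0 : ∀ x < 2 ^ n, ∀ y < 2 ^ n, F0 x y = F0' x y)
    (h1 : ∀ x < 2 ^ n, ∀ y < 2 ^ n, F1 x y = F1' x y)
    (h2 : ∀ x < 2 ^ n, ∀ y < 2 ^ n, F2 x y = F2' x y) :
    dyadicForm n S ε F0 F1 F2 = dyadicForm n S ε F0' F1' F2' := by
  unfold dyadicForm
  apply Finset.sum_congr rfl
  intro k _
  rw [scaleForm_congr n k h0 h1 h2]

lemma normCube_congr (n : ℕ) {F F' : ℕ → ℕ → ℝ}
    (h : ∀ x < 2 ^ n, ∀ y < 2 ^ n, F x y = F' x y) : normCube n F = normCube n F' := by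
  unfold normCube
  apply Finset.sum_congr rfl
  intro x hx
  apply Finset.sum_congr rfl
  intro y hy
  rw [mem_range] at hx hy
  rw [h x hx y hy]

/-- The two-tensor bound, when `F₀` and `F₁` are elementary tensors on the box. -/
theorem form_bound_two_tensors (n : ℕ) (S : Finset ℕ) (ε : ℕ → ℝ)
    (hS : ∀ k ∈ S, 1 ≤ k) (hε : ∀ k ∈ S, |ε k| ≤ 1) (F0 F1 F2 : ℕ → ℕ → ℝ)
    (h0 : ∃ f g : ℕ → ℝ, ∀ x < 2 ^ n, ∀ y < 2 ^ n, F0 x y = f x * g y)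
    (h1 : ∃ f g : ℕ → ℝ, ∀ x < 2 ^ n, ∀ y < 2 ^ n, F1 x y = f x * g y) :
    |dyadicForm n S ε F0 F1 F2| ^ 3 ≤ 8 * (normCube n F0 * normCube n F1 * normCube n F2) := by
  obtain ⟨f0, g0, h0⟩ := h0
  obtain ⟨f1, g1, h1⟩ := h1
  rw [dyadicForm_congr n S ε h0 h1 (fun x _ y _ => rfl), normCube_congr n h0, normCube_congr n h1]
  have h := form_bound_tensor01 n S ε hS hε f0 g0 f1 g1 F2
  linarith

end Vale.Agent.Lib.P075
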