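import Mathlib
import Vale.Agent.Lib.P075.Dyadic
import Vale.Agent.Lib.P075.Blocks

/-!
# P075 helper: the dyadic maximal function on a box and Doob's inequality for `p = 3` and `p = 3/2`
-/

namespace Vale.Agent.Lib.P075

open Finset

/-- `Md M φ k u` is the largest average of `φ` over the dyadic blocks of length `2^j`,
`M - k ≤ j ≤ M`, that contain `u`. -/
noncomputable def Md (M : ℕ) (φ : ℕ → ℝ) : ℕ → ℕ → ℝ
  | 0, u => Fj M φ M u
  | k + 1, u => max (Md M φ k u) (Fj M φ (M - (k + 1)) u)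

lemma Fj_flip' (M : ℕ) (χ : ℕ → ℝ) {i j : ℕ} (h : i < j) (x : ℕ) :
    Fj M χ j (x ^^^ 2 ^ i) = Fj M χ j x := by
  unfold Fj
  rw [blk_flip M χ h x]

lemma Md_flip (M : ℕ) (φ : ℕ → ℝ) (j : ℕ) :
    ∀ k : ℕ, j + k < M → ∀ u : ℕ, Md M φ k (u ^^^ 2 ^ j) = Md M φ k u := by
  intro k
  induction k with
  | zero =>
    intro h u
    simp only [Md]
    exact Fj_flip' M φ (by omega) u
  | succ k ih =>
    intro h u
    simp only [Md]
    rw [ih (by omega) u, Fj_flip' M φ (by omega) u]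

lemma Fj_le_Md (M : ℕ) (φ : ℕ → ℝ) (u : ℕ) :
    ∀ k : ℕ, ∀ i : ℕ, i ≤ M → M - k ≤ i → Fj M φ i u ≤ Md M φ k u := by
  intro k
  induction k with
  | zero =>
    intro i hi1 hi2
    have : i = M := by omega
    subst this
    simp only [Md]
    exact le_rfl
  | succ k ih =>
    intro i hi1 hi2
    simp only [Md]
    by_cases h : M - k ≤ i
    · exact (ih i hi1 h).trans (le_max_left _ _)
    · have : i = M - (k + 1) := by omega
      subst this
      exact le_max_right _ _

lemma Md_nonneg (M : ℕ) {φ : ℕ → ℝ} (hφ : ∀ u < 2 ^ M, 0 ≤ φ u) (k u : ℕ) : 0 ≤ Md M φ k u :=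
  (Fj_nonneg M hφ M u).trans (Fj_le_Md M φ u k M le_rfl (by omega))

/-- The abstract Doob induction. -/
theorem doob_generic (U : ℝ → ℝ → ℝ)
    (hU2 : ∀ A m d : ℝ, 0 ≤ A → A ≤ m → |d| ≤ A →
      U (A + d) (max m (A + d)) + U (A - d) (max m (A - d)) ≤ 2 * U A m)
    (hU0 : ∀ a : ℝ, 0 ≤ a → U a a ≤ 0)
    (M : ℕ) (φ : ℕ → ℝ) (hφ : ∀ u < 2 ^ M, 0 ≤ φ u) :
    ∑ u ∈ range (2 ^ M), U (φ u) (Md M φ M u) ≤ 0 := by
  have key : ∀ k : ℕ, k ≤ M →
      ∑ u ∈ range (2 ^ M), U (Fj M φ (M - k) u) (Md M φ k u) ≤ 0 := by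
    intro k
    induction k with
    | zero =>
      intro _
      apply Finset.sum_nonpos
      intro u _
      simp only [Md, Nat.sub_zero]
      exact hU0 _ (Fj_nonneg M hφ M u)
    | succ k ih =>
      intro hk
      have ih' := ih (by omega)
      set j := M - (k + 1) with hj
      have hj1 : M - k = j + 1 := by omega
      have hjM : j < M := by omega
      rw [hj1] at ih'
      have h1 : ∑ u ∈ range (2 ^ M), U (Fj M φ j u) (Md M φ (k + 1) u) =
          ∑ u ∈ range (2 ^ M), U (Fj M φ j (u ^^^ 2 ^ j)) (Md M φ (k + 1) (u ^^^ 2 ^ j)) :=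
        (sum_flip M hjM (fun u => U (Fj M φ j u) (Md M φ (k + 1) u))).symm
      have h2 : 2 * ∑ u ∈ range (2 ^ M), U (Fj M φ j u) (Md M φ (k + 1) u) ≤
          2 * ∑ u ∈ range (2 ^ M), U (Fj M φ (j + 1) u) (Md M φ k u) := by
        have h3 : 2 * ∑ u ∈ range (2 ^ M), U (Fj M φ j u) (Md M φ (k + 1) u) =
            ∑ u ∈ range (2 ^ M), (U (Fj M φ j u) (Md M φ (k + 1) u) +
              U (Fj M φ j (u ^^^ 2 ^ j)) (Md M φ (k + 1) (u ^^^ 2 ^ j))) := by
          rw [Finset.sum_add_distrib, ← h1]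
          ring
        rw [h3, Finset.mul_sum]
        apply Finset.sum_le_sum
        intro u _
        have e1 : Md M φ (k + 1) u = max (Md M φ k u) (Fj M φ j u) := by
          simp only [Md]
          rw [← hj]
        have e2 : Md M φ (k + 1) (u ^^^ 2 ^ j) =
            max (Md M φ k u) (Fj M φ j (u ^^^ 2 ^ j)) := by
          simp only [Md]
          rw [← hj, Md_flip M φ j k (by omega) u]
        rw [e1, e2, Fj_step M φ j u, Fj_step M φ j (u ^^^ 2 ^ j), Fj_flip' M φ (Nat.lt_succ_self j) u,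
          dlt_flip_self]
        have hA : 0 ≤ Fj M φ (j + 1) u := Fj_nonneg M hφ _ u
        have hAm : Fj M φ (j + 1) u ≤ Md M φ k u := Fj_le_Md M φ u k (j + 1) (by omega) (by omega)
        have hd : |dlt M φ j u| ≤ Fj M φ (j + 1) u := by
          have h5 := Fj_step M φ j u
          have h6 := Fj_le_two_mul M hφ j u
          have h7 := Fj_nonneg M hφ j u
          rw [abs_le]
          constructor <;> linarith
        have := hU2 (Fj M φ (j + 1) u) (Md M φ k u) (dlt M φ j u) hA hAm hd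
        rw [show Fj M φ (j + 1) u + -dlt M φ j u = Fj M φ (j + 1) u - dlt M φ j u by ring]
        exact this
      linarith
  have h := key M le_rfl
  have e : ∑ u ∈ range (2 ^ M), U (φ u) (Md M φ M u) =
      ∑ u ∈ range (2 ^ M), U (Fj M φ (M - M) u) (Md M φ M u) := by
    apply Finset.sum_congr rfl
    intro u hu
    rw [mem_range] at hu
    rw [Nat.sub_self, Fj_zero M φ hu]
  rw [e]
  exact h

/-- **Doob's maximal inequality, `p = 3`.** -/
theorem doob3 (M : ℕ) (φ : ℕ → ℝ) (hφ : ∀ u < 2 ^ M, 0 ≤ φ u) :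
    ∑ u ∈ range (2 ^ M), Md M φ M u ^ 3 ≤ 27 / 8 * ∑ u ∈ range (2 ^ M), φ u ^ 3 := by
  have h := doob_generic (fun a m => 3 * m ^ 3 - 9 / 2 * m ^ 2 * a) (by
      intro A m d hA hAm hd
      have hm : 0 ≤ m := hA.trans hAm
      have key : ∀ a' : ℝ, 0 ≤ a' →
          3 * (max m a') ^ 3 - 9 / 2 * (max m a') ^ 2 * a' ≤ 3 * m ^ 3 - 9 / 2 * m ^ 2 * a' := by
        intro a' ha'
        rcases le_total a' m with h | h
        · rw [max_eq_left h]
        · rw [max_eq_right h]
          nlinarith [mul_nonneg (sq_nonneg (a' - m)) (by linarith : (0 : ℝ) ≤ a' + 2 * m)]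
      have h1 := key (A + d) (by linarith [abs_le.mp hd])
      have h2 := key (A - d) (by linarith [abs_le.mp hd])
      linarith) (by
      intro a ha
      nlinarith [pow_nonneg ha 3]) M φ hφ
  have h2 : ∑ u ∈ range (2 ^ M), (Md M φ M u ^ 3 - 27 / 8 * φ u ^ 3) ≤
      ∑ u ∈ range (2 ^ M), (3 * Md M φ M u ^ 3 - 9 / 2 * Md M φ M u ^ 2 * φ u) := by
    apply Finset.sum_le_sum
    intro u hu
    rw [mem_range] at hu
    have ha := hφ u hu
    have hm := Md_nonneg M hφ M u
    nlinarith [mul_nonneg (sq_nonneg (Md M φ M u - 3 / 2 * φ u))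
      (by linarith : (0 : ℝ) ≤ 2 * Md M φ M u + 3 / 2 * φ u)]
  rw [Finset.sum_sub_distrib, ← Finset.mul_sum] at h2
  linarith

/-- **Doob's maximal inequality, `p = 3/2`** (with the constant `6 ≥ 3^{3/2}`). -/
theorem doob32 (M : ℕ) (φ : ℕ → ℝ) (hφ : ∀ u < 2 ^ M, 0 ≤ φ u) :
    ∑ u ∈ range (2 ^ M), Md M φ M u * √(Md M φ M u) ≤
      6 * ∑ u ∈ range (2 ^ M), φ u * √(φ u) := by
  have h := doob_generic (fun a m => 3 / 2 * √m * (m - 3 * a)) (by
      intro A m d hA hAm hd
      have hm : 0 ≤ m := hA.trans hAm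
      have key : ∀ a' : ℝ, 0 ≤ a' →
          3 / 2 * √(max m a') * (max m a' - 3 * a') ≤ 3 / 2 * √m * (m - 3 * a') := by
        intro a' ha'
        rcases le_total a' m with h | h
        · rw [max_eq_left h]
        · rw [max_eq_right h]
          have hr := Real.sqrt_nonneg m
          have hρ := Real.sqrt_nonneg a'
          have hr2 := Real.sq_sqrt hm
          have hρ2 := Real.sq_sqrt ha'
          have hle : √m ≤ √a' := Real.sqrt_le_sqrt h
          have e1 : m = √m ^ 2 := hr2.symm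
          have e2 : a' = √a' ^ 2 := hρ2.symm
          rw [e1, e2]
          rw [Real.sqrt_sq hr, Real.sqrt_sq hρ]
          nlinarith [mul_nonneg (sq_nonneg (√a' - √m)) (by linarith : (0 : ℝ) ≤ 2 * √a' + √m)]
      have h1 := key (A + d) (by linarith [abs_le.mp hd])
      have h2 := key (A - d) (by linarith [abs_le.mp hd])
      linarith) (by
      intro a ha
      have := Real.sqrt_nonneg a
      nlinarith [mul_nonneg this ha]) M φ hφ
  have h2 : ∑ u ∈ range (2 ^ M), (Md M φ M u * √(Md M φ M u) - 6 * (φ u * √(φ u))) ≤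
      ∑ u ∈ range (2 ^ M), (3 / 2 * √(Md M φ M u) * (Md M φ M u - 3 * φ u)) := by
    apply Finset.sum_le_sum
    intro u hu
    rw [mem_range] at hu
    have ha := hφ u hu
    have hm := Md_nonneg M hφ M u
    have hr := Real.sqrt_nonneg (Md M φ M u)
    have hα := Real.sqrt_nonneg (φ u)
    have hr2 := Real.sq_sqrt hm
    have hα2 := Real.sq_sqrt ha
    generalize √(Md M φ M u) = r at *
    generalize √(φ u) = α at *
    rw [← hr2, ← hα2]
    nlinarith [mul_nonneg (sq_nonneg (r - 7 / 4 * α)) (by linarith : (0 : ℝ) ≤ r + 7 / 2 * α),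
      mul_nonneg hr (sq_nonneg α), pow_nonneg hα 3]
  rw [Finset.sum_sub_distrib, ← Finset.mul_sum] at h2
  linarith

end Vale.Agent.Lib.P075
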