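import Mathlib

/-!
# P075 helper: finite `ℓ^p` norms of real sequences indexed by `range Z`
-/

namespace Vale.Agent.Lib.P075

open Finset

/-- The `ℓ^p` norm of `v` restricted to `range Z`. -/
noncomputable def vn (p : ℝ) (Z : ℕ) (v : ℕ → ℝ) : ℝ := (∑ z ∈ range Z, |v z| ^ p) ^ (1 / p)

lemma vn_sum_nonneg (p : ℝ) (Z : ℕ) (v : ℕ → ℝ) : 0 ≤ ∑ z ∈ range Z, |v z| ^ p :=
  Finset.sum_nonneg fun _ _ => Real.rpow_nonneg (abs_nonneg _) p

lemma vn_nonneg (p : ℝ) (Z : ℕ) (v : ℕ → ℝ) : 0 ≤ vn p Z v :=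
  Real.rpow_nonneg (vn_sum_nonneg p Z v) _

lemma vn_rpow {p : ℝ} (hp : 0 < p) (Z : ℕ) (v : ℕ → ℝ) :
    vn p Z v ^ p = ∑ z ∈ range Z, |v z| ^ p := by
  unfold vn
  rw [← Real.rpow_mul (vn_sum_nonneg p Z v), one_div, inv_mul_cancel₀ hp.ne', Real.rpow_one]

lemma vn_add_le {p : ℝ} (hp : 1 ≤ p) (Z : ℕ) (v w : ℕ → ℝ) :
    vn p Z (fun z => v z + w z) ≤ vn p Z v + vn p Z w :=
  Real.Lp_add_le (range Z) v w hp

lemma vn_zero {p : ℝ} (hp : 0 < p) (Z : ℕ) : vn p Z (fun _ => 0) = 0 := by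
  unfold vn
  simp [Real.zero_rpow hp.ne', Real.zero_rpow (inv_pos.mpr hp).ne']

lemma vn_smul {p : ℝ} (hp : 0 < p) (Z : ℕ) (c : ℝ) (v : ℕ → ℝ) :
    vn p Z (fun z => c * v z) = |c| * vn p Z v := by
  unfold vn
  have h1 : ∑ z ∈ range Z, |c * v z| ^ p = |c| ^ p * ∑ z ∈ range Z, |v z| ^ p := by
    rw [Finset.mul_sum]
    apply Finset.sum_congr rfl
    intro z _
    rw [abs_mul, Real.mul_rpow (abs_nonneg _) (abs_nonneg _)]
  rw [h1, Real.mul_rpow (Real.rpow_nonneg (abs_nonneg _) _) (vn_sum_nonneg p Z v),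
    ← Real.rpow_mul (abs_nonneg _), mul_one_div_cancel hp.ne', Real.rpow_one]

lemma vn_sum_le {p : ℝ} (hp : 1 ≤ p) (Z : ℕ) {ι : Type*} (s : Finset ι) (V : ι → ℕ → ℝ) :
    vn p Z (fun z => ∑ i ∈ s, V i z) ≤ ∑ i ∈ s, vn p Z (V i) := by
  classical
  induction s using Finset.induction_on with
  | empty =>
    simp only [Finset.sum_empty]
    rw [vn_zero (by linarith)]
  | insert a s ha ih =>
    simp only [Finset.sum_insert ha]
    exact (vn_add_le hp Z _ _).trans (by linarith)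

lemma holder_vn {p q : ℝ} (hpq : p.HolderConjugate q) (Z : ℕ) (v w : ℕ → ℝ) :
    |∑ z ∈ range Z, v z * w z| ≤ vn p Z v * vn q Z w := by
  have h1 : |∑ z ∈ range Z, v z * w z| ≤ ∑ z ∈ range Z, |v z| * |w z| := by
    refine (Finset.abs_sum_le_sum_abs _ _).trans (le_of_eq ?_)
    apply Finset.sum_congr rfl
    intro z _
    rw [abs_mul]
  have h2 := Real.inner_le_Lp_mul_Lq (range Z) (fun z => |v z|) (fun z => |w z|) hpq
  simp only [abs_abs] at h2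
  exact h1.trans h2

end Vale.Agent.Lib.P075
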