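import Mathlib
import Vale.Agent.Lib.P075.Dyadic
import Vale.Agent.Lib.P075.Blocks
import Vale.Agent.Lib.P075.Vec

/-!
# P075 helper: stopping construction for vector-valued dyadic martingale transforms
-/

namespace Vale.Agent.Lib.P075

open Finset

/-- The block of length `2^j` containing `x` is stopped: one of the two block averages
exceeds four times its threshold. -/
def Bad (M : ℕ) (φ γ : ℕ → ℝ) (a b : ℝ) (j x : ℕ) : Prop :=
  4 * a < Fj M φ j x ∨ 4 * b < Fj M γ j x

lemma Bad_congr (M : ℕ) (φ γ : ℕ → ℝ) (a b : ℝ) {j x y : ℕ} (h : x / 2 ^ j = y / 2 ^ j) :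
    Bad M φ γ a b j x ↔ Bad M φ γ a b j y := by
  unfold Bad
  rw [Fj_eq_of_div_eq M φ h, Fj_eq_of_div_eq M γ h]

open Classical in
/-- The stopped function: on the largest stopped block of length at most `2^j` around `x`
it is the block average of `χ`; at unstopped points it is `χ`. -/
noncomputable def sf (M : ℕ) (φ γ : ℕ → ℝ) (a b : ℝ) (χ : ℕ → ℝ) : ℕ → ℕ → ℝ
  | 0, x => χ x
  | j + 1, x => if Bad M φ γ a b (j + 1) x then Fj M χ (j + 1) x else sf M φ γ a b χ j x

open Classical in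
/-- Indicator of the stopped points (at scales at most `j`). -/
noncomputable def st (M : ℕ) (φ γ : ℕ → ℝ) (a b : ℝ) : ℕ → ℕ → ℝ
  | 0, x => if Bad M φ γ a b 0 x then 1 else 0
  | j + 1, x => if Bad M φ γ a b (j + 1) x then 1 else st M φ γ a b j x

section stopping

variable (M : ℕ) (φ γ : ℕ → ℝ) (a b : ℝ)

lemma sf_of_bad {j x : ℕ} (hb : Bad M φ γ a b j x) {u : ℕ} (hu : u < 2 ^ M)
    (hux : u / 2 ^ j = x / 2 ^ j) (χ : ℕ → ℝ) : sf M φ γ a b χ j u = Fj M χ j x := by
  cases j with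
  | zero =>
    have : u = x := by simpa using hux
    subst this
    simp only [sf]
    rw [Fj_zero M χ hu]
  | succ j =>
    simp only [sf]
    rw [if_pos ((Bad_congr M φ γ a b hux).mpr hb), Fj_eq_of_div_eq M χ hux]

lemma sf_of_good {j x : ℕ} (hg : ¬ Bad M φ γ a b (j + 1) x) {u : ℕ}
    (hux : u / 2 ^ (j + 1) = x / 2 ^ (j + 1)) (χ : ℕ → ℝ) :
    sf M φ γ a b χ (j + 1) u = sf M φ γ a b χ j u := by
  simp only [sf]
  rw [if_neg (fun h => hg ((Bad_congr M φ γ a b hux).mp h))]

lemma st_of_bad {j x : ℕ} (hb : Bad M φ γ a b j x) {u : ℕ} (hux : u / 2 ^ j = x / 2 ^ j) :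
    st M φ γ a b j u = 1 := by
  cases j with
  | zero =>
    simp only [st]
    rw [if_pos ((Bad_congr M φ γ a b hux).mpr hb)]
  | succ j =>
    simp only [st]
    rw [if_pos ((Bad_congr M φ γ a b hux).mpr hb)]

lemma st_of_good {j x : ℕ} (hg : ¬ Bad M φ γ a b (j + 1) x) {u : ℕ}
    (hux : u / 2 ^ (j + 1) = x / 2 ^ (j + 1)) :
    st M φ γ a b (j + 1) u = st M φ γ a b j u := by
  simp only [st]
  rw [if_neg (fun h => hg ((Bad_congr M φ γ a b hux).mp h))]

lemma st_nonneg : ∀ j u : ℕ, 0 ≤ st M φ γ a b j u := by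
  intro j
  induction j with
  | zero =>
    intro u
    simp only [st]
    split_ifs <;> norm_num
  | succ j ih =>
    intro u
    simp only [st]
    split_ifs
    · norm_num
    · exact ih u

lemma st_le_one : ∀ j u : ℕ, st M φ γ a b j u ≤ 1 := by
  intro j
  induction j with
  | zero =>
    intro u
    simp only [st]
    split_ifs <;> norm_num
  | succ j ih =>
    intro u
    simp only [st]
    split_ifs
    · norm_num
    · exact ih u

lemma blk_sf_self (χ : ℕ → ℝ) :
    ∀ j : ℕ, j ≤ M → ∀ x < 2 ^ M, blk M (sf M φ γ a b χ j) j x = blk M χ j x := by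
  intro j
  induction j with
  | zero =>
    intro _ x _
    exact blk_congr M fun u _ _ => rfl
  | succ j ih =>
    intro hj x hx
    by_cases hb : Bad M φ γ a b (j + 1) x
    · rw [blk_const_on M (c := Fj M χ (j + 1) x) hj hx
        (fun u hu hux => sf_of_bad M φ γ a b hb hu hux χ)]
      unfold Fj
      field_simp
    · rw [blk_congr M (χ' := sf M φ γ a b χ j) (fun u _ hux => sf_of_good M φ γ a b hb hux χ),
        blk_succ, blk_succ, ih (by omega) x hx, ih (by omega) _ (xor_pow_lt hx (by omega))]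

lemma blk_sf (χ : ℕ → ℝ) {j : ℕ} (hj : j ≤ M) :
    ∀ i : ℕ, j ≤ i → i ≤ M → ∀ x < 2 ^ M, blk M (sf M φ γ a b χ j) i x = blk M χ i x := by
  intro i hji
  induction i, hji using Nat.le_induction with
  | base =>
    intro _ x hx
    exact blk_sf_self M φ γ a b χ j hj x hx
  | succ i hji ih =>
    intro hi x hx
    rw [blk_succ, blk_succ, ih (by omega) x hx, ih (by omega) _ (xor_pow_lt hx (by omega))]

lemma dlt_sf (χ : ℕ → ℝ) {j i : ℕ} (hji : j ≤ i) (hi : i + 1 ≤ M) {x : ℕ} (hx : x < 2 ^ M) :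
    dlt M (sf M φ γ a b χ j) i x = dlt M χ i x := by
  unfold dlt
  rw [blk_sf M φ γ a b χ (by omega) i hji (by omega) x hx,
    blk_sf M φ γ a b χ (by omega) (i + 1) (by omega) hi x hx]

/-- Counting the stopped points. -/
lemma st_count (hφ : ∀ u < 2 ^ M, 0 ≤ φ u) (hγ : ∀ u < 2 ^ M, 0 ≤ γ u) (ha : 0 ≤ a)
    (hb : 0 ≤ b) : ∀ j : ℕ, j ≤ M → ∀ x < 2 ^ M,
      16 * a * b * blk M (st M φ γ a b j) j x ≤ 4 * b * blk M φ j x + 4 * a * blk M γ j x := by
  have hbad : ∀ j : ℕ, j ≤ M → ∀ x < 2 ^ M, Bad M φ γ a b j x →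
      16 * a * b * blk M (st M φ γ a b j) j x ≤ 4 * b * blk M φ j x + 4 * a * blk M γ j x := by
    intro j hj x hx hbd
    rw [blk_const_on M (c := 1) hj hx (fun u _ hux => st_of_bad M φ γ a b hbd hux)]
    have h1 : 0 ≤ blk M φ j x := blk_nonneg M fun u hu _ => hφ u hu
    have h2 : 0 ≤ blk M γ j x := blk_nonneg M fun u hu _ => hγ u hu
    have hp : (0 : ℝ) < 2 ^ j := by positivity
    rcases hbd with h | h
    · unfold Fj at h
      rw [lt_div_iff₀ hp] at h
      nlinarith [mul_nonneg ha h2, mul_nonneg hb h1]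
    · unfold Fj at h
      rw [lt_div_iff₀ hp] at h
      nlinarith [mul_nonneg ha h2, mul_nonneg hb h1]
  intro j
  induction j with
  | zero =>
    intro hj x hx
    by_cases hbd : Bad M φ γ a b 0 x
    · exact hbad 0 hj x hx hbd
    · rw [blk_zero M _ hx]
      simp only [st]
      rw [if_neg hbd, mul_zero]
      have h1 : 0 ≤ blk M φ 0 x := blk_nonneg M fun u hu _ => hφ u hu
      have h2 : 0 ≤ blk M γ 0 x := blk_nonneg M fun u hu _ => hγ u hu
      nlinarith [mul_nonneg ha h2, mul_nonneg hb h1]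
  | succ j ih =>
    intro hj x hx
    by_cases hbd : Bad M φ γ a b (j + 1) x
    · exact hbad (j + 1) hj x hx hbd
    · rw [blk_congr M (χ' := st M φ γ a b j) (fun u _ hux => st_of_good M φ γ a b hbd hux),
        blk_succ, blk_succ M φ, blk_succ M γ]
      have h1 := ih (by omega) x hx
      have h2 := ih (by omega) _ (xor_pow_lt hx (by omega : j < M))
      linarith

end stopping

/-- Minkowski: the norm of a block average is at most the block average of the norms. -/
lemma vn_Fj_le {p : ℝ} (hp : 1 ≤ p) (M Z : ℕ) (F : ℕ → ℕ → ℝ) (j x : ℕ) :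
    vn p Z (fun z => Fj M (F z) j x) ≤ Fj M (fun u => vn p Z (fun z => F z u)) j x := by
  have hp0 : 0 < p := by linarith
  have h2 : (0 : ℝ) < 2 ^ j := by positivity
  have e1 : (fun z => Fj M (F z) j x) = fun z => ∑ u ∈ range (2 ^ M),
      (1 / 2 ^ j : ℝ) * (if u / 2 ^ j = x / 2 ^ j then F z u else 0) := by
    funext z
    unfold Fj blk
    rw [← Finset.mul_sum]
    ring
  rw [e1]
  refine (vn_sum_le hp Z (range (2 ^ M))
    (fun u z => (1 / 2 ^ j : ℝ) * (if u / 2 ^ j = x / 2 ^ j then F z u else 0))).trans ?_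
  unfold Fj blk
  rw [Finset.sum_div]
  apply Finset.sum_le_sum
  intro u _
  rw [vn_smul hp0, abs_of_pos (by positivity : (0 : ℝ) < 1 / 2 ^ j)]
  by_cases hc : u / 2 ^ j = x / 2 ^ j
  · simp only [if_pos hc]
    rw [one_div, inv_mul_eq_div]
  · simp only [if_neg hc]
    rw [vn_zero hp0, mul_zero, zero_div]

/-- The stopped functions are bounded by twice the stopping threshold. -/
lemma sf_bound {p : ℝ} (hp : 1 ≤ p) (M Z : ℕ) (φ γ : ℕ → ℝ) (a b : ℝ) (F : ℕ → ℕ → ℝ) (c : ℝ)
    (hstop : ∀ j u, ¬ Bad M φ γ a b j u → Fj M (fun u => vn p Z (fun z => F z u)) j u ≤ c) :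
    ∀ j : ℕ, j ≤ M → ∀ u < 2 ^ M, Fj M (fun u => vn p Z (fun z => F z u)) j u ≤ 2 * c →
      vn p Z (fun z => sf M φ γ a b (F z) j u) ≤ 2 * c := by
  intro j
  induction j with
  | zero =>
    intro _ u hu h
    simp only [sf]
    rw [Fj_zero M _ hu] at h
    exact h
  | succ j ih =>
    intro hj u hu h
    by_cases hb : Bad M φ γ a b (j + 1) u
    · simp only [sf, if_pos hb]
      exact (vn_Fj_le hp M Z F (j + 1) u).trans h
    · simp only [sf, if_neg hb]
      apply ih (by omega) u hu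
      have h1 := hstop (j + 1) u hb
      have h2 := Fj_le_two_mul M (χ := fun u => vn p Z (fun z => F z u))
        (fun u _ => vn_nonneg p Z _) j u
      linarith

end Vale.Agent.Lib.P075
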