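import Mathlib
import Vale.Agent.Lib.P075.Dyadic
import Vale.Agent.Lib.P075.Blocks
import Vale.Agent.Lib.P075.Vec
import Vale.Agent.Lib.P075.Stop

/-!
# P075 helper: sparse-type bound for vector-valued dyadic martingale transforms

For `F z`, `G z` (`z < Z`) real functions on `[0, 2^M)`, the pairing
`∑_x ∑_z (T F_z)(x) G_z(x)` of a martingale transform `T` is bounded by `256 ∑_x Mφ(x) Mγ(x)`,
where `Mφ`, `Mγ` dominate all dyadic block averages of the pointwise `ℓ^3` norm of `F` and the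
pointwise `ℓ^{3/2}` norm of `G`.
-/

namespace Vale.Agent.Lib.P075

open Finset

/-- Pointwise pairing of the transform truncated to scales `< j`. -/
noncomputable def Pd (M Z : ℕ) (S : Finset ℕ) (e : ℕ → ℝ) (F G : ℕ → ℕ → ℝ) (j x : ℕ) : ℝ :=
  ∑ z ∈ range Z, Tbox M (F z) (S.filter (· < j)) e x * G z x

/-- The pairing localized to the block of length `2^j` containing `x`. -/
noncomputable def Bq (M Z : ℕ) (S : Finset ℕ) (e : ℕ → ℝ) (F G : ℕ → ℕ → ℝ) (j x : ℕ) : ℝ :=
  blk M (Pd M Z S e F G j) j x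

noncomputable def cj (M : ℕ) (S : Finset ℕ) (e : ℕ → ℝ) (χ : ℕ → ℝ) (j x : ℕ) : ℝ :=
  if j ∈ S then e j * dlt M χ j x else 0

noncomputable def topq (M Z : ℕ) (S : Finset ℕ) (e : ℕ → ℝ) (F G : ℕ → ℕ → ℝ) (j x : ℕ) : ℝ :=
  blk M (fun u => ∑ z ∈ range Z, cj M S e (F z) j u * G z u) (j + 1) x

section pairing

variable (M Z : ℕ) (S : Finset ℕ) (e : ℕ → ℝ) (F G : ℕ → ℕ → ℝ)

lemma Bq_zero (x : ℕ) : Bq M Z S e F G 0 x = 0 := by
  unfold Bq
  rw [blk_congr M (χ' := fun _ => 0) ?_, blk_zero_fun]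
  intro u _ _
  unfold Pd
  apply Finset.sum_eq_zero
  intro z _
  rw [Tbox_filter_zero, zero_mul]

lemma Bq_succ (j x : ℕ) : Bq M Z S e F G (j + 1) x =
    Bq M Z S e F G j x + Bq M Z S e F G j (x ^^^ 2 ^ j) + topq M Z S e F G j x := by
  unfold Bq topq
  have h : Pd M Z S e F G (j + 1) =
      fun u => Pd M Z S e F G j u + ∑ z ∈ range Z, cj M S e (F z) j u * G z u := by
    funext u
    unfold Pd cj
    rw [← Finset.sum_add_distrib]
    apply Finset.sum_congr rfl
    intro z _
    rw [Tbox_filter_succ]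
    ring
  rw [h, blk_add, blk_succ]

lemma blk_cj (j y : ℕ) : blk M (fun u => ∑ z ∈ range Z, cj M S e (F z) j u * G z u) j y =
    ∑ z ∈ range Z, cj M S e (F z) j y * blk M (G z) j y := by
  rw [blk_sum]
  apply Finset.sum_congr rfl
  intro z _
  rw [← blk_const_mul]
  apply blk_congr
  intro u _ huy
  unfold cj
  rw [dlt_eq_of_div_eq M _ huy]

lemma topq_eq (j x : ℕ) : topq M Z S e F G j x =
    ∑ z ∈ range Z, cj M S e (F z) j x * blk M (G z) j x +
      ∑ z ∈ range Z, cj M S e (F z) j (x ^^^ 2 ^ j) * blk M (G z) j (x ^^^ 2 ^ j) := by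
  unfold topq
  rw [blk_succ, blk_cj, blk_cj]

end pairing

open Classical in
/-- Sum of the localized pairings over the maximal stopped blocks. -/
noncomputable def CS (M Z : ℕ) (S : Finset ℕ) (e : ℕ → ℝ) (F G : ℕ → ℕ → ℝ) (φ γ : ℕ → ℝ)
    (a b : ℝ) : ℕ → ℕ → ℝ
  | 0, x => if Bad M φ γ a b 0 x then Bq M Z S e F G 0 x else 0
  | j + 1, x => if Bad M φ γ a b (j + 1) x then Bq M Z S e F G (j + 1) x
      else CS M Z S e F G φ γ a b j x + CS M Z S e F G φ γ a b j (x ^^^ 2 ^ j)

open Classical in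
/-- The part of the localized pairing above the stopped blocks. -/
noncomputable def BT (M Z : ℕ) (S : Finset ℕ) (e : ℕ → ℝ) (F G : ℕ → ℕ → ℝ) (φ γ : ℕ → ℝ)
    (a b : ℝ) : ℕ → ℕ → ℝ
  | 0, _ => 0
  | j + 1, x => if Bad M φ γ a b (j + 1) x then 0
      else BT M Z S e F G φ γ a b j x + BT M Z S e F G φ γ a b j (x ^^^ 2 ^ j) +
        topq M Z S e F G j x

section decomposition

variable (M Z : ℕ) (S : Finset ℕ) (e : ℕ → ℝ) (F G : ℕ → ℕ → ℝ) (φ γ : ℕ → ℝ) (a b : ℝ)

lemma Bq_eq_BT_add_CS : ∀ j x : ℕ,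
    Bq M Z S e F G j x = BT M Z S e F G φ γ a b j x + CS M Z S e F G φ γ a b j x := by
  intro j
  induction j with
  | zero =>
    intro x
    simp only [BT, CS]
    rw [Bq_zero]
    split_ifs <;> simp
  | succ j ih =>
    intro x
    simp only [BT, CS]
    by_cases hb : Bad M φ γ a b (j + 1) x
    · rw [if_pos hb, if_pos hb, zero_add]
    · rw [if_neg hb, if_neg hb, Bq_succ, ih x, ih (x ^^^ 2 ^ j)]
      ring

lemma BT_eq : ∀ j : ℕ, j ≤ M → ∀ x < 2 ^ M,
    BT M Z S e F G φ γ a b j x =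
      Bq M Z S e (fun z => sf M φ γ a b (F z) j) (fun z => sf M φ γ a b (G z) j) j x := by
  intro j
  induction j with
  | zero =>
    intro _ x _
    rw [Bq_zero]
    simp only [BT]
  | succ j ih =>
    intro hj x hx
    have hx' : x ^^^ 2 ^ j < 2 ^ M := xor_pow_lt hx (by omega)
    by_cases hb : Bad M φ γ a b (j + 1) x
    · simp only [BT]
      rw [if_pos hb]
      symm
      unfold Bq
      rw [blk_congr M (χ' := fun _ => 0) ?_, blk_zero_fun]
      intro u hu hux
      unfold Pd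
      apply Finset.sum_eq_zero
      intro z _
      have h0 : Tbox M (sf M φ γ a b (F z) (j + 1)) (S.filter (· < j + 1)) e u = 0 := by
        unfold Tbox
        apply Finset.sum_eq_zero
        intro i hi
        rw [Finset.mem_filter] at hi
        rw [dlt_const_on M (c := Fj M (F z) (j + 1) x) (by omega) hj hu hux
          (fun v hv hvx => sf_of_bad M φ γ a b hb hv hvx (F z)), mul_zero]
      rw [h0, zero_mul]
    · simp only [BT]
      rw [if_neg hb, ih (by omega) x hx, ih (by omega) _ hx']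
      have e1 : Bq M Z S e (fun z => sf M φ γ a b (F z) (j + 1))
          (fun z => sf M φ γ a b (G z) (j + 1)) (j + 1) x =
          Bq M Z S e (fun z => sf M φ γ a b (F z) j) (fun z => sf M φ γ a b (G z) j) (j + 1) x := by
        unfold Bq
        apply blk_congr
        intro u _ hux
        unfold Pd
        apply Finset.sum_congr rfl
        intro z _
        beta_reduce
        rw [Tbox_local M S e hux (fun v _ hvx => sf_of_good M φ γ a b hb hvx (F z)),
          sf_of_good M φ γ a b hb hux (G z)]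
      rw [e1, Bq_succ, topq_eq, topq_eq]
      congr 1
      congr 1
      · apply Finset.sum_congr rfl
        intro z _
        unfold cj
        rw [dlt_sf M φ γ a b (F z) le_rfl hj hx, blk_sf_self M φ γ a b (G z) j (by omega) x hx]
      · apply Finset.sum_congr rfl
        intro z _
        unfold cj
        rw [dlt_sf M φ γ a b (F z) le_rfl hj hx', blk_sf_self M φ γ a b (G z) j (by omega) _ hx']

lemma CS_bound (C : ℝ) (hC : 0 ≤ C) (W : ℕ → ℝ) (hW : ∀ u < 2 ^ M, 0 ≤ W u) (J : ℕ)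
    (hJM : J ≤ M) (IH : ∀ i < J, ∀ x < 2 ^ M, |Bq M Z S e F G i x| ≤ C * blk M W i x) :
    ∀ j : ℕ, j ≤ J → ∀ x < 2 ^ M, (Bad M φ γ a b j x → j < J) →
      |CS M Z S e F G φ γ a b j x| ≤ C * blk M (fun u => st M φ γ a b j u * W u) j x := by
  have hbad : ∀ j : ℕ, ∀ x < 2 ^ M, Bad M φ γ a b j x → j < J →
      |Bq M Z S e F G j x| ≤ C * blk M (fun u => st M φ γ a b j u * W u) j x := by
    intro j x hx hb hj
    rw [blk_congr M (χ' := W) (fun u _ hux => by rw [st_of_bad M φ γ a b hb hux, one_mul])]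
    exact IH j hj x hx
  intro j
  induction j with
  | zero =>
    intro _ x hx hJ
    simp only [CS]
    by_cases hb : Bad M φ γ a b 0 x
    · rw [if_pos hb]
      exact hbad 0 x hx hb (hJ hb)
    · rw [if_neg hb, abs_zero]
      exact mul_nonneg hC (blk_nonneg M fun u hu _ =>
        mul_nonneg (st_nonneg M φ γ a b 0 u) (hW u hu))
  | succ j ih =>
    intro hjJ x hx hJ
    simp only [CS]
    by_cases hb : Bad M φ γ a b (j + 1) x
    · rw [if_pos hb]
      exact hbad (j + 1) x hx hb (hJ hb)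
    · rw [if_neg hb]
      have h1 := ih (by omega) x hx (fun _ => by omega)
      have h2 := ih (by omega) _ (xor_pow_lt hx (by omega : j < M)) (fun _ => by omega)
      rw [blk_congr M (χ' := fun u => st M φ γ a b j u * W u)
        (fun u _ hux => by rw [st_of_good M φ γ a b hb hux]), blk_succ]
      have := abs_add_le (CS M Z S e F G φ γ a b j x) (CS M Z S e F G φ γ a b j (x ^^^ 2 ^ j))
      linarith

end decomposition

lemma rpow_aux (A B N : ℝ) (hA : 0 ≤ A) (hB : 0 ≤ B) (hN : 0 < N) :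
    (8 * A ^ (3 : ℝ) * N) ^ ((1 : ℝ) / 3) * (B ^ ((3 : ℝ) / 2) * N) ^ ((1 : ℝ) / (3 / 2)) =
      2 * A * B * N := by
  have h8 : (8 : ℝ) = 2 ^ (3 : ℝ) := by
    rw [Real.rpow_ofNat]
    norm_num
  rw [h8, ← Real.mul_rpow (by norm_num) hA,
    Real.mul_rpow (Real.rpow_nonneg (by positivity) _) hN.le,
    ← Real.rpow_mul (by positivity), Real.mul_rpow (Real.rpow_nonneg hB _) hN.le,
    ← Real.rpow_mul hB]
  have e1 : (3 : ℝ) * (1 / 3) = 1 := by norm_num
  have e2 : (3 : ℝ) / 2 * (1 / (3 / 2)) = 1 := by norm_num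
  rw [e1, e2, Real.rpow_one, Real.rpow_one]
  have e3 : N ^ ((1 : ℝ) / 3) * N ^ ((1 : ℝ) / (3 / 2)) = N := by
    rw [← Real.rpow_add hN]
    norm_num
  calc 2 * A * N ^ ((1 : ℝ) / 3) * (B * N ^ ((1 : ℝ) / (3 / 2)))
      = 2 * A * B * (N ^ ((1 : ℝ) / 3) * N ^ ((1 : ℝ) / (3 / 2))) := by ring
    _ = 2 * A * B * N := by rw [e3]

lemma top_bound (M Z : ℕ) (S : Finset ℕ) (e : ℕ → ℝ) (he : ∀ j ∈ S, |e j| ≤ 1)
    (Fs Gs : ℕ → ℕ → ℝ) (J : ℕ) (hJ : J ≤ M) (x0 : ℕ) (hx0 : x0 < 2 ^ M) (A B : ℝ)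
    (hA : 0 ≤ A) (hB : 0 ≤ B)
    (hF : ∀ u < 2 ^ M, u / 2 ^ J = x0 / 2 ^ J → vn 3 Z (fun z => Fs z u) ≤ A)
    (hG : ∀ u < 2 ^ M, u / 2 ^ J = x0 / 2 ^ J → vn (3 / 2) Z (fun z => Gs z u) ≤ B) :
    |Bq M Z S e Fs Gs J x0| ≤ 2 * A * B * 2 ^ J := by
  classical
  set S' := S.filter (· < J) with hS'
  set χ : ℕ → ℕ → ℝ := fun z v => if v / 2 ^ J = x0 / 2 ^ J then Fs z v else 0 with hχ
  set α : ℕ → ℝ := fun u => vn 3 Z (fun z => Tbox M (χ z) S' e u) with hα
  set β : ℕ → ℝ := fun u =>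
    if u / 2 ^ J = x0 / 2 ^ J then vn (3 / 2) Z (fun z => Gs z u) else 0 with hβ
  have hconj : (3 : ℝ).HolderConjugate (3 / 2) :=
    Real.holderConjugate_iff.mpr ⟨by norm_num, by norm_num⟩
  have h1 : |Bq M Z S e Fs Gs J x0| ≤ ∑ u ∈ range (2 ^ M), α u * β u := by
    unfold Bq blk
    refine (Finset.abs_sum_le_sum_abs _ _).trans (Finset.sum_le_sum ?_)
    intro u hu
    rw [mem_range] at hu
    by_cases hc : u / 2 ^ J = x0 / 2 ^ J
    · rw [if_pos hc]
      have e1 : Pd M Z S e Fs Gs J u = ∑ z ∈ range Z, Tbox M (χ z) S' e u * Gs z u := by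
        unfold Pd
        apply Finset.sum_congr rfl
        intro z _
        rw [Tbox_local M S e hc (χ' := χ z) (fun v _ hv => by simp only [hχ, if_pos hv])]
      rw [e1]
      have h := holder_vn hconj Z (fun z => Tbox M (χ z) S' e u) (fun z => Gs z u)
      simp only [hα, hβ, if_pos hc]
      exact h
    · rw [if_neg hc, abs_zero]
      simp only [hβ, if_neg hc, mul_zero, le_refl]
  have hα0 : ∀ u ∈ range (2 ^ M), 0 ≤ α u := fun u _ => vn_nonneg _ _ _
  have hβ0 : ∀ u ∈ range (2 ^ M), 0 ≤ β u := by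
    intro u _
    simp only [hβ]
    split_ifs
    · exact vn_nonneg _ _ _
    · exact le_rfl
  have h2 := Real.inner_le_Lp_mul_Lq_of_nonneg (range (2 ^ M)) hconj hα0 hβ0
  have hcount : ∀ c : ℝ, ∑ u ∈ range (2 ^ M), (if u / 2 ^ J = x0 / 2 ^ J then c else 0) =
      c * 2 ^ J := by
    intro c
    have h := blk_const_on M (χ := fun _ => c) (c := c) hJ hx0 (fun _ _ _ => rfl)
    unfold blk at h
    exact h
  have h3 : ∑ u ∈ range (2 ^ M), α u ^ (3 : ℝ) ≤ 8 * A ^ (3 : ℝ) * 2 ^ J := by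
    have e1 : ∀ u ∈ range (2 ^ M), α u ^ (3 : ℝ) = ∑ z ∈ range Z, |Tbox M (χ z) S' e u| ^ 3 := by
      intro u _
      simp only [hα]
      rw [vn_rpow (by norm_num)]
      apply Finset.sum_congr rfl
      intro z _
      rw [Real.rpow_ofNat]
    rw [Finset.sum_congr rfl e1, Finset.sum_comm]
    have hb : ∀ z ∈ range Z, ∑ u ∈ range (2 ^ M), |Tbox M (χ z) S' e u| ^ 3 ≤
        8 * ∑ u ∈ range (2 ^ M), |χ z u| ^ 3 := by
      intro z _
      apply burkholder_box M (χ z) S' e
      · intro j hj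
        rw [hS', Finset.mem_filter] at hj
        omega
      · intro j hj
        rw [hS', Finset.mem_filter] at hj
        exact he j hj.1
    refine (Finset.sum_le_sum hb).trans ?_
    rw [← Finset.mul_sum, Finset.sum_comm]
    have hc : ∀ u ∈ range (2 ^ M), ∑ z ∈ range Z, |χ z u| ^ 3 ≤
        if u / 2 ^ J = x0 / 2 ^ J then A ^ (3 : ℝ) else 0 := by
      intro u hu
      rw [mem_range] at hu
      by_cases hq : u / 2 ^ J = x0 / 2 ^ J
      · rw [if_pos hq]
        have e2 : ∑ z ∈ range Z, |χ z u| ^ 3 = vn 3 Z (fun z => Fs z u) ^ (3 : ℝ) := by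
          rw [vn_rpow (by norm_num)]
          apply Finset.sum_congr rfl
          intro z _
          simp only [hχ, if_pos hq]
          rw [Real.rpow_ofNat]
        rw [e2]
        exact Real.rpow_le_rpow (vn_nonneg _ _ _) (hF u hu hq) (by norm_num)
      · rw [if_neg hq]
        apply le_of_eq
        apply Finset.sum_eq_zero
        intro z _
        simp only [hχ, if_neg hq]
        simp
    have h5 := Finset.sum_le_sum hc
    rw [hcount] at h5
    linarith
  have h4 : ∑ u ∈ range (2 ^ M), β u ^ ((3 : ℝ) / 2) ≤ B ^ ((3 : ℝ) / 2) * 2 ^ J := by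
    have hc : ∀ u ∈ range (2 ^ M), β u ^ ((3 : ℝ) / 2) ≤
        if u / 2 ^ J = x0 / 2 ^ J then B ^ ((3 : ℝ) / 2) else 0 := by
      intro u hu
      rw [mem_range] at hu
      simp only [hβ]
      by_cases hq : u / 2 ^ J = x0 / 2 ^ J
      · rw [if_pos hq, if_pos hq]
        exact Real.rpow_le_rpow (vn_nonneg _ _ _) (hG u hu hq) (by norm_num)
      · rw [if_neg hq, if_neg hq, Real.zero_rpow (by norm_num)]
    have h5 := Finset.sum_le_sum hc
    rw [hcount] at h5
    exact h5
  have hs1 : 0 ≤ ∑ u ∈ range (2 ^ M), α u ^ (3 : ℝ) :=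
    Finset.sum_nonneg fun u hu => Real.rpow_nonneg (hα0 u hu) _
  have hs2 : 0 ≤ ∑ u ∈ range (2 ^ M), β u ^ ((3 : ℝ) / 2) :=
    Finset.sum_nonneg fun u hu => Real.rpow_nonneg (hβ0 u hu) _
  calc |Bq M Z S e Fs Gs J x0| ≤ ∑ u ∈ range (2 ^ M), α u * β u := h1
    _ ≤ (∑ u ∈ range (2 ^ M), α u ^ (3 : ℝ)) ^ ((1 : ℝ) / 3) *
          (∑ u ∈ range (2 ^ M), β u ^ ((3 : ℝ) / 2)) ^ ((1 : ℝ) / (3 / 2)) := h2
    _ ≤ (8 * A ^ (3 : ℝ) * 2 ^ J) ^ ((1 : ℝ) / 3) *
          (B ^ ((3 : ℝ) / 2) * 2 ^ J) ^ ((1 : ℝ) / (3 / 2)) :=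
        mul_le_mul (Real.rpow_le_rpow hs1 h3 (by norm_num))
          (Real.rpow_le_rpow hs2 h4 (by norm_num)) (Real.rpow_nonneg hs2 _)
          (Real.rpow_nonneg (hs1.trans h3) _)
    _ = 2 * A * B * 2 ^ J := rpow_aux A B (2 ^ J) hA hB (by positivity)

/-- **Sparse-type bound for vector-valued martingale transforms.** -/
theorem sparse_bound (M Z : ℕ) (S : Finset ℕ) (e : ℕ → ℝ) (he : ∀ j ∈ S, |e j| ≤ 1)
    (hS : ∀ j ∈ S, j < M) (F G : ℕ → ℕ → ℝ) (Mφ Mγ : ℕ → ℝ)
    (hφ : ∀ j ≤ M, ∀ u < 2 ^ M, Fj M (fun x => vn 3 Z (fun z => F z x)) j u ≤ Mφ u)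
    (hγ : ∀ j ≤ M, ∀ u < 2 ^ M, Fj M (fun x => vn (3 / 2) Z (fun z => G z x)) j u ≤ Mγ u) :
    |∑ x ∈ range (2 ^ M), ∑ z ∈ range Z, Tbox M (F z) S e x * G z x| ≤
      256 * ∑ x ∈ range (2 ^ M), Mφ x * Mγ x := by
  set φ : ℕ → ℝ := fun x => vn 3 Z (fun z => F z x) with hφdef
  set γ : ℕ → ℝ := fun x => vn (3 / 2) Z (fun z => G z x) with hγdef
  set W : ℕ → ℝ := fun u => Mφ u * Mγ u with hWdef
  have hφ0 : ∀ u < 2 ^ M, 0 ≤ φ u := fun u _ => vn_nonneg _ _ _
  have hγ0 : ∀ u < 2 ^ M, 0 ≤ γ u := fun u _ => vn_nonneg _ _ _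
  have hMφ0 : ∀ u < 2 ^ M, 0 ≤ Mφ u := fun u hu =>
    (Fj_nonneg M hφ0 0 u).trans (hφ 0 (Nat.zero_le M) u hu)
  have hMγ0 : ∀ u < 2 ^ M, 0 ≤ Mγ u := fun u hu =>
    (Fj_nonneg M hγ0 0 u).trans (hγ 0 (Nat.zero_le M) u hu)
  have hW : ∀ u < 2 ^ M, 0 ≤ W u := fun u hu => mul_nonneg (hMφ0 u hu) (hMγ0 u hu)
  have key : ∀ J : ℕ, J ≤ M → ∀ x0 < 2 ^ M, |Bq M Z S e F G J x0| ≤ 256 * blk M W J x0 := by
    intro J
    induction J using Nat.strong_induction_on with
    | _ J IH =>
      intro hJ x0 hx0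
      set a := Fj M φ J x0 with ha
      set b := Fj M γ J x0 with hb
      have ha0 : 0 ≤ a := Fj_nonneg M hφ0 J x0
      have hb0 : 0 ≤ b := Fj_nonneg M hγ0 J x0
      have hgood : ¬ Bad M φ γ a b J x0 := by
        unfold Bad
        intro h
        rcases h with h | h <;> linarith
      have IH' : ∀ i < J, ∀ x < 2 ^ M, |Bq M Z S e F G i x| ≤ 256 * blk M W i x :=
        fun i hi x hx => IH i hi (by omega) x hx
      have hCS := CS_bound M Z S e F G φ γ a b 256 (by norm_num) W hW J hJ IH' J le_rfl x0 hx0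
        (fun h => absurd h hgood)
      have hBT : |BT M Z S e F G φ γ a b J x0| ≤ 2 * (2 * (4 * a)) * (2 * (4 * b)) * 2 ^ J := by
        rw [BT_eq M Z S e F G φ γ a b J hJ x0 hx0]
        apply top_bound M Z S e he _ _ J hJ x0 hx0 _ _ (by linarith) (by linarith)
        · intro u hu hux
          apply sf_bound (by norm_num) M Z φ γ a b F (4 * a) ?_ J hJ u hu
          · rw [Fj_eq_of_div_eq M _ hux]
            show Fj M φ J x0 ≤ 2 * (4 * a)
            linarith
          · intro j u hg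
            unfold Bad at hg
            rw [not_or, not_lt, not_lt] at hg
            exact hg.1
        · intro u hu hux
          apply sf_bound (by norm_num) M Z φ γ a b G (4 * b) ?_ J hJ u hu
          · rw [Fj_eq_of_div_eq M _ hux]
            show Fj M γ J x0 ≤ 2 * (4 * b)
            linarith
          · intro j u hg
            unfold Bad at hg
            rw [not_or, not_lt, not_lt] at hg
            exact hg.2
      rw [Bq_eq_BT_add_CS M Z S e F G φ γ a b J x0]
      have hsplit : blk M W J x0 = blk M (fun u => st M φ γ a b J u * W u) J x0 +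
          blk M (fun u => (1 - st M φ γ a b J u) * W u) J x0 := by
        rw [← blk_add]
        apply blk_congr
        intro u _ _
        ring
      have hns : 0 ≤ blk M (fun u => (1 - st M φ γ a b J u) * W u) J x0 :=
        blk_nonneg M fun u hu _ =>
          mul_nonneg (by linarith [st_le_one M φ γ a b J u]) (hW u hu)
      have habs := abs_add_le (BT M Z S e F G φ γ a b J x0) (CS M Z S e F G φ γ a b J x0)
      by_cases hab : a * b = 0
      · have h0 : |BT M Z S e F G φ γ a b J x0| ≤ 0 := by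
          have e0 : 2 * (2 * (4 * a)) * (2 * (4 * b)) * 2 ^ J = 128 * (a * b) * 2 ^ J := by ring
          rw [e0, hab] at hBT
          simpa using hBT
        linarith
      · have habpos : 0 < a * b := lt_of_le_of_ne (mul_nonneg ha0 hb0) (Ne.symm hab)
        have hcount := st_count M φ γ a b hφ0 hγ0 ha0 hb0 J hJ x0 hx0
        have hpow : (0 : ℝ) < 2 ^ J := by positivity
        have e1 : blk M φ J x0 = a * 2 ^ J := by
          rw [ha]
          unfold Fj
          field_simp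
        have e2 : blk M γ J x0 = b * 2 ^ J := by
          rw [hb]
          unfold Fj
          field_simp
        rw [e1, e2] at hcount
        have hNs : blk M (st M φ γ a b J) J x0 ≤ 2 ^ J / 2 := by
          by_contra hcon
          rw [not_le] at hcon
          nlinarith [mul_pos habpos (sub_pos.mpr hcon)]
        have hlow : a * b * (2 ^ J - blk M (st M φ γ a b J) J x0) ≤
            blk M (fun u => (1 - st M φ γ a b J u) * W u) J x0 := by
          have h1 : blk M (fun u => (a * b) * (1 - st M φ γ a b J u)) J x0 ≤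
              blk M (fun u => (1 - st M φ γ a b J u) * W u) J x0 := by
            apply blk_mono
            intro u hu hux
            have hWu : a * b ≤ W u := by
              have h1 : a ≤ Mφ u := by
                have h := hφ J hJ u hu
                rw [Fj_eq_of_div_eq M _ hux] at h
                exact h
              have h2 : b ≤ Mγ u := by
                have h := hγ J hJ u hu
                rw [Fj_eq_of_div_eq M _ hux] at h
                exact h
              exact mul_le_mul h1 h2 hb0 (ha0.trans h1)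
            have h3 := st_le_one M φ γ a b J u
            nlinarith
          have h2 : blk M (fun u => (a * b) * (1 - st M φ γ a b J u)) J x0 =
              a * b * (2 ^ J - blk M (st M φ γ a b J) J x0) := by
            rw [blk_const_mul]
            congr 1
            have e3 : (fun u => 1 - st M φ γ a b J u) =
                fun u => (1 : ℝ) + (-1) * st M φ γ a b J u := by
              funext u
              ring
            rw [e3, blk_add, blk_const_mul, blk_one M J hJ x0 hx0]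
            ring
          linarith
        have h5 : 2 * (2 * (4 * a)) * (2 * (4 * b)) * 2 ^ J ≤
            256 * (a * b * (2 ^ J - blk M (st M φ γ a b J) J x0)) := by
          nlinarith [mul_le_mul_of_nonneg_left hNs habpos.le]
        linarith
  have h := key M le_rfl 0 (by positivity)
  unfold Bq at h
  rw [blk_top, blk_top] at h
  have e : ∀ x ∈ range (2 ^ M), Pd M Z S e F G M x =
      ∑ z ∈ range Z, Tbox M (F z) S e x * G z x := by
    intro x _
    unfold Pd
    rw [Finset.filter_true_of_mem hS]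
  rw [Finset.sum_congr rfl e] at h
  exact h

end Vale.Agent.Lib.P075
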