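import Mathlib
import Vale.Agent.Lib.P075.Dyadic
import Vale.Agent.Lib.P075.Blocks
import Vale.Agent.Lib.P075.Vec
import Vale.Agent.Lib.P075.Doob
import Vale.Agent.Lib.P075.Sparse

/-!
# P075 helper: the vector-valued `L^{3/2}(ℓ^3) × L^3(ℓ^{3/2})` bound for dyadic martingale
transforms on the box
-/

namespace Vale.Agent.Lib.P075

open Finset

lemma rpow_three_halves {a : ℝ} (ha : 0 ≤ a) : a ^ (3 / 2 : ℝ) = a * √a := by
  rw [Real.sqrt_eq_rpow]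
  have h : (3 / 2 : ℝ) = 1 + 1 / 2 := by norm_num
  rw [h, Real.rpow_add' ha (by norm_num), Real.rpow_one]

/-- Hölder's inequality with exponents `3/2` and `3`, in cubed form. -/
lemma holder_cubed {ι : Type*} (s : Finset ι) (a b : ι → ℝ) (ha : ∀ i ∈ s, 0 ≤ a i)
    (hb : ∀ i ∈ s, 0 ≤ b i) :
    (∑ i ∈ s, a i * b i) ^ 3 ≤ (∑ i ∈ s, a i * √(a i)) ^ 2 * ∑ i ∈ s, b i ^ 3 := by
  have hpq : (3 / 2 : ℝ).HolderConjugate 3 := by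
    rw [Real.holderConjugate_iff]
    norm_num
  have h := Real.inner_le_Lp_mul_Lq_of_nonneg (s := s) (f := a) (g := b) hpq ha hb
  have e1 : ∑ i ∈ s, a i ^ (3 / 2 : ℝ) = ∑ i ∈ s, a i * √(a i) :=
    Finset.sum_congr rfl fun i hi => rpow_three_halves (ha i hi)
  have e2 : ∑ i ∈ s, b i ^ (3 : ℝ) = ∑ i ∈ s, b i ^ 3 :=
    Finset.sum_congr rfl fun i _ => Real.rpow_ofNat (b i) 3
  rw [e1, e2] at h
  have hP : 0 ≤ ∑ i ∈ s, a i * √(a i) :=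
    Finset.sum_nonneg fun i hi => mul_nonneg (ha i hi) (Real.sqrt_nonneg _)
  have hQ : 0 ≤ ∑ i ∈ s, b i ^ 3 := Finset.sum_nonneg fun i hi => pow_nonneg (hb i hi) 3
  have h0 : 0 ≤ ∑ i ∈ s, a i * b i :=
    Finset.sum_nonneg fun i hi => mul_nonneg (ha i hi) (hb i hi)
  generalize (∑ i ∈ s, a i * √(a i)) = P at h hP ⊢
  generalize (∑ i ∈ s, b i ^ 3) = Q at h hQ ⊢
  have h3 := pow_le_pow_left₀ h0 h 3
  have e3 : (P ^ (1 / (3 / 2) : ℝ)) ^ 3 = P ^ 2 := by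
    rw [← Real.rpow_natCast, ← Real.rpow_mul hP]
    norm_num
  have e4 : (Q ^ (1 / 3 : ℝ)) ^ 3 = Q := by
    rw [← Real.rpow_natCast, ← Real.rpow_mul hQ]
    norm_num
  rw [mul_pow, e3, e4] at h3
  exact h3

lemma vn3_mul_sqrt (Z : ℕ) (v : ℕ → ℝ) :
    vn 3 Z v * √(vn 3 Z v) = √(∑ z ∈ range Z, |v z| ^ 3) := by
  have h0 := vn_nonneg 3 Z v
  have h1 := vn_rpow (p := 3) (by norm_num) Z v
  have e2 : ∑ z ∈ range Z, |v z| ^ (3 : ℝ) = ∑ z ∈ range Z, |v z| ^ 3 :=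
    Finset.sum_congr rfl fun z _ => Real.rpow_ofNat (|v z|) 3
  rw [e2, Real.rpow_ofNat] at h1
  rw [← h1]
  have h2 : vn 3 Z v ^ 3 = (vn 3 Z v * √(vn 3 Z v)) ^ 2 := by
    rw [mul_pow, Real.sq_sqrt h0]
    ring
  rw [h2, Real.sqrt_sq (mul_nonneg h0 (Real.sqrt_nonneg _))]

lemma vn32_cube (Z : ℕ) (v : ℕ → ℝ) :
    vn (3 / 2) Z v ^ 3 = (∑ z ∈ range Z, |v z| * √|v z|) ^ 2 := by
  have h0 := vn_nonneg (3 / 2) Z v
  have h1 := vn_rpow (p := 3 / 2) (by norm_num) Z v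
  have e2 : ∑ z ∈ range Z, |v z| ^ (3 / 2 : ℝ) = ∑ z ∈ range Z, |v z| * √|v z| :=
    Finset.sum_congr rfl fun z _ => rpow_three_halves (abs_nonneg _)
  rw [e2] at h1
  rw [← h1, ← Real.rpow_natCast (vn (3 / 2) Z v ^ (3 / 2 : ℝ)) 2, ← Real.rpow_mul h0,
    ← Real.rpow_natCast]
  norm_num

/-- The vector-valued bound for a dyadic martingale transform, in cubed form. -/
theorem vv_bound (M Z : ℕ) (S : Finset ℕ) (e : ℕ → ℝ) (he : ∀ j ∈ S, |e j| ≤ 1)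
    (hS : ∀ j ∈ S, j < M) (F G : ℕ → ℕ → ℝ) :
    |∑ x ∈ range (2 ^ M), ∑ z ∈ range Z, Tbox M (F z) S e x * G z x| ^ 3 ≤
      2038431744 * ((∑ x ∈ range (2 ^ M), √(∑ z ∈ range Z, |F z x| ^ 3)) ^ 2 *
        ∑ x ∈ range (2 ^ M), (∑ z ∈ range Z, |G z x| * √|G z x|) ^ 2) := by
  set φ : ℕ → ℝ := fun x => vn 3 Z (fun z => F z x) with hφdef
  set γ : ℕ → ℝ := fun x => vn (3 / 2) Z (fun z => G z x) with hγdef
  have hφ0 : ∀ u < 2 ^ M, 0 ≤ φ u := fun u _ => vn_nonneg _ _ _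
  have hγ0 : ∀ u < 2 ^ M, 0 ≤ γ u := fun u _ => vn_nonneg _ _ _
  have hsp := sparse_bound M Z S e he hS F G (Md M φ M) (Md M γ M)
    (fun j hj u _ => Fj_le_Md M φ u M j hj (by omega))
    (fun j hj u _ => Fj_le_Md M γ u M j hj (by omega))
  have hh := holder_cubed (range (2 ^ M)) (Md M φ M) (Md M γ M)
    (fun i _ => Md_nonneg M hφ0 M i) (fun i _ => Md_nonneg M hγ0 M i)
  have hd1 := doob32 M φ hφ0
  have hd2 := doob3 M γ hγ0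
  have e1 : ∑ u ∈ range (2 ^ M), φ u * √(φ u) =
      ∑ x ∈ range (2 ^ M), √(∑ z ∈ range Z, |F z x| ^ 3) :=
    Finset.sum_congr rfl fun x _ => vn3_mul_sqrt Z (fun z => F z x)
  have e2 : ∑ u ∈ range (2 ^ M), γ u ^ 3 =
      ∑ x ∈ range (2 ^ M), (∑ z ∈ range Z, |G z x| * √|G z x|) ^ 2 :=
    Finset.sum_congr rfl fun x _ => vn32_cube Z (fun z => G z x)
  rw [e1] at hd1
  rw [e2] at hd2
  have hA0 : 0 ≤ ∑ u ∈ range (2 ^ M), Md M φ M u * √(Md M φ M u) :=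
    Finset.sum_nonneg fun i _ => mul_nonneg (Md_nonneg M hφ0 M i) (Real.sqrt_nonneg _)
  have hB0 : 0 ≤ ∑ u ∈ range (2 ^ M), Md M γ M u ^ 3 :=
    Finset.sum_nonneg fun i _ => pow_nonneg (Md_nonneg M hγ0 M i) 3
  have hW0 : 0 ≤ ∑ x ∈ range (2 ^ M), Md M φ M x * Md M γ M x :=
    Finset.sum_nonneg fun i _ => mul_nonneg (Md_nonneg M hφ0 M i) (Md_nonneg M hγ0 M i)
  generalize (∑ x ∈ range (2 ^ M), √(∑ z ∈ range Z, |F z x| ^ 3)) = P at hd1 ⊢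
  generalize (∑ x ∈ range (2 ^ M), (∑ z ∈ range Z, |G z x| * √|G z x|) ^ 2) = Q at hd2 ⊢
  generalize (∑ u ∈ range (2 ^ M), Md M φ M u * √(Md M φ M u)) = A at hh hd1 hA0
  generalize (∑ u ∈ range (2 ^ M), Md M γ M u ^ 3) = B at hh hd2 hB0
  generalize (∑ x ∈ range (2 ^ M), Md M φ M x * Md M γ M x) = W at hsp hh hW0
  have h1 := pow_le_pow_left₀ (abs_nonneg _) hsp 3
  have h2 : A ^ 2 ≤ (6 * P) ^ 2 := pow_le_pow_left₀ hA0 hd1 2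
  have h3 : A ^ 2 * B ≤ (6 * P) ^ 2 * (27 / 8 * Q) :=
    mul_le_mul h2 hd2 hB0 (sq_nonneg _)
  calc _ ≤ (256 * W) ^ 3 := h1
    _ = 256 ^ 3 * W ^ 3 := by ring
    _ ≤ 256 ^ 3 * (A ^ 2 * B) := by
        apply mul_le_mul_of_nonneg_left hh (by norm_num)
    _ ≤ 256 ^ 3 * ((6 * P) ^ 2 * (27 / 8 * Q)) := by
        apply mul_le_mul_of_nonneg_left h3 (by norm_num)
    _ = 2038431744 * (P ^ 2 * Q) := by ring

end Vale.Agent.Lib.P075
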