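import Mathlib
import Vale.Agent.Lib.P075.Defs
import Vale.Agent.Lib.P075.Dyadic
import Vale.Agent.Lib.P075.Form
import Vale.Agent.Lib.P075.Cyclic
import Vale.Agent.Lib.P075.VV

/-!
# P075 helper: the dyadic triangular form with one elementary tensor

When `F₀(x₀,x₁) = f₀(x₀) g₀(x₁)`, the form is the pairing of a vector-valued dyadic martingale
transform (in the variable `x₀`, with parameter `z = x₂`) against a sheared copy of `g₀ F₁`.
-/

namespace Vale.Agent.Lib.P075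

open Finset

/-- `x ↦ f₀(x) F₂(z,x)`, extended by zero outside `[0, 2^n)`. -/
noncomputable def Fv (n : ℕ) (f0 : ℕ → ℝ) (F2 : ℕ → ℕ → ℝ) (z x : ℕ) : ℝ :=
  if x < 2 ^ n then f0 x * F2 z x else 0

/-- `w ↦ g₀(z ⊕ w) F₁(z ⊕ w, z)`, extended by zero outside `[0, 2^n)`. -/
noncomputable def Gv (n : ℕ) (g0 : ℕ → ℝ) (F1 : ℕ → ℕ → ℝ) (z w : ℕ) : ℝ :=
  if w < 2 ^ n then g0 (z ^^^ w) * F1 (z ^^^ w) z else 0

lemma sum_comm3 {α β γ : Type*} (s : Finset α) (t : Finset β) (u : Finset γ)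
    (T : α → β → γ → ℝ) :
    ∑ a ∈ s, ∑ b ∈ t, ∑ c ∈ u, T a b c = ∑ c ∈ u, ∑ b ∈ t, ∑ a ∈ s, T a b c := by
  rw [Finset.sum_comm]
  have h : ∀ b ∈ t, ∑ a ∈ s, ∑ c ∈ u, T a b c = ∑ c ∈ u, ∑ a ∈ s, T a b c :=
    fun b _ => Finset.sum_comm
  rw [Finset.sum_congr rfl h, Finset.sum_comm]

lemma range_pow_subset {n M : ℕ} (hM : n ≤ M) : range (2 ^ n) ⊆ range (2 ^ M) := by
  intro u hu
  rw [mem_range] at hu ⊢
  exact lt_of_lt_of_le hu (Nat.pow_le_pow_right (by norm_num) hM)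

lemma scaleForm_one_tensor (n j M : ℕ) (hM : n ≤ M) (f0 g0 : ℕ → ℝ) (F1 F2 : ℕ → ℕ → ℝ) :
    scaleForm n (j + 1) (fun x y => f0 x * g0 y) F1 F2 =
      ∑ z ∈ range (2 ^ n), ∑ w ∈ range (2 ^ M),
        dlt M (Fv n f0 F2 z) j w * Gv n g0 F1 z w := by
  unfold scaleForm
  rw [sum_comm3, Finset.mul_sum]
  apply Finset.sum_congr rfl
  intro z hz
  rw [mem_range] at hz
  have hR : ∑ w ∈ range (2 ^ M), dlt M (Fv n f0 F2 z) j w * Gv n g0 F1 z w =
      ∑ w ∈ range (2 ^ n), dlt M (Fv n f0 F2 z) j w * (g0 (z ^^^ w) * F1 (z ^^^ w) z) := by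
    symm
    apply Finset.sum_subset_zero_on_sdiff (range_pow_subset hM)
    · intro w hw
      rw [Finset.mem_sdiff, mem_range, mem_range] at hw
      unfold Gv
      rw [if_neg hw.2, mul_zero]
    · intro w hw
      rw [mem_range] at hw
      unfold Gv
      rw [if_pos hw]
  rw [hR, ← sum_xor n hz, Finset.mul_sum]
  apply Finset.sum_congr rfl
  intro w hw
  have hinner : ∀ x0 ∈ range (2 ^ n),
      (if (x0 / 2 ^ (j + 1)) ^^^ ((z ^^^ w) / 2 ^ (j + 1)) ^^^ (z / 2 ^ (j + 1)) = 0 then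
          f0 x0 * g0 (z ^^^ w) * F1 (z ^^^ w) z * F2 z x0 *
            (haarSign (j + 1) x0 * haarSign (j + 1) (z ^^^ w) * haarSign (j + 1) z)
        else 0) =
      g0 (z ^^^ w) * F1 (z ^^^ w) z * haarSign (j + 1) w *
        (if x0 / 2 ^ (j + 1) = w / 2 ^ (j + 1) then
          haarSign (j + 1) x0 * Fv n f0 F2 z x0 else 0) := by
    intro x0 hx0
    rw [mem_range] at hx0
    have hc : ((x0 / 2 ^ (j + 1)) ^^^ ((z ^^^ w) / 2 ^ (j + 1)) ^^^ (z / 2 ^ (j + 1)) = 0) ↔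
        (x0 / 2 ^ (j + 1) = w / 2 ^ (j + 1)) := by
      rw [Nat.xor_div_two_pow]
      generalize x0 / 2 ^ (j + 1) = a
      generalize z / 2 ^ (j + 1) = b
      generalize w / 2 ^ (j + 1) = c
      rw [Nat.xor_comm b c, ← Nat.xor_assoc, Nat.xor_assoc (a ^^^ c), Nat.xor_self, Nat.xor_zero,
        Nat.xor_eq_zero_iff]
    unfold Fv
    rw [if_pos hx0]
    by_cases h : x0 / 2 ^ (j + 1) = w / 2 ^ (j + 1)
    · rw [if_pos (hc.mpr h), if_pos h, haarSign_xor]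
      have hsq := haarSign_mul_self (j + 1) z
      linear_combination (f0 x0 * g0 (z ^^^ w) * F1 (z ^^^ w) z * F2 z x0 *
        haarSign (j + 1) x0 * haarSign (j + 1) w) * hsq
    · rw [if_neg (fun h' => h (hc.mp h')), if_neg h, mul_zero]
  rw [Finset.sum_congr rfl hinner, ← Finset.mul_sum]
  have h3 : ∑ u ∈ range (2 ^ n), (if u / 2 ^ (j + 1) = w / 2 ^ (j + 1) then
        haarSign (j + 1) u * Fv n f0 F2 z u else 0) =
      ∑ u ∈ range (2 ^ M), (if u / 2 ^ (j + 1) = w / 2 ^ (j + 1) then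
        haarSign (j + 1) u * Fv n f0 F2 z u else 0) := by
    apply Finset.sum_subset (range_pow_subset hM)
    intro u _ hu
    rw [mem_range] at hu
    unfold Fv
    rw [if_neg hu]
    simp
  rw [h3, mul_assoc (g0 (z ^^^ w) * F1 (z ^^^ w) z), haar_link]
  unfold dlt
  rw [one_div, inv_pow, div_eq_mul_inv]
  ring

lemma dyadicForm_one_tensor (n M : ℕ) (hM : n ≤ M) (S : Finset ℕ) (ε : ℕ → ℝ)
    (hS : ∀ k ∈ S, 1 ≤ k) (f0 g0 : ℕ → ℝ) (F1 F2 : ℕ → ℕ → ℝ) :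
    dyadicForm n S ε (fun x y => f0 x * g0 y) F1 F2 =
      ∑ x ∈ range (2 ^ M), ∑ z ∈ range (2 ^ n),
        Tbox M (Fv n f0 F2 z) (S.image fun k => k - 1) (fun j => ε (j + 1)) x *
          Gv n g0 F1 z x := by
  have hinj : Set.InjOn (fun k : ℕ => k - 1) (S : Set ℕ) := by
    intro a ha b hb hab
    have h1 := hS a ha
    have h2 := hS b hb
    simp only at hab
    omega
  have h1 : ∀ x ∈ range (2 ^ M), ∀ z ∈ range (2 ^ n),
      Tbox M (Fv n f0 F2 z) (S.image fun k => k - 1) (fun j => ε (j + 1)) x * Gv n g0 F1 z x =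
      ∑ k ∈ S, ε k * (dlt M (Fv n f0 F2 z) (k - 1) x * Gv n g0 F1 z x) := by
    intro x _ z _
    unfold Tbox
    rw [Finset.sum_image hinj, Finset.sum_mul]
    apply Finset.sum_congr rfl
    intro k hk
    have hk1 : k - 1 + 1 = k := Nat.sub_add_cancel (hS k hk)
    beta_reduce
    rw [hk1]
    ring
  rw [Finset.sum_congr rfl (fun x hx => Finset.sum_congr rfl (h1 x hx)), sum_comm3]
  unfold dyadicForm
  apply Finset.sum_congr rfl
  intro k hk
  have hk1 : k - 1 + 1 = k := Nat.sub_add_cancel (hS k hk)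
  have h2 := scaleForm_one_tensor n (k - 1) M hM f0 g0 F1 F2
  rw [hk1] at h2
  rw [h2, Finset.mul_sum]
  apply Finset.sum_congr rfl
  intro z _
  rw [Finset.mul_sum]

/-- Cauchy–Schwarz for a sum of square roots of products. -/
lemma sum_sqrt_mul_sq_le {ι : Type*} (s : Finset ι) (a b : ι → ℝ) (ha : ∀ i, 0 ≤ a i)
    (hb : ∀ i, 0 ≤ b i) :
    (∑ i ∈ s, √(a i * b i)) ^ 2 ≤ (∑ i ∈ s, a i) * ∑ i ∈ s, b i := by
  have h1 : ∑ i ∈ s, √(a i * b i) = ∑ i ∈ s, √(a i) * √(b i) :=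
    Finset.sum_congr rfl fun i _ => Real.sqrt_mul (ha i) (b i)
  have h2 := Real.sum_sqrt_mul_sqrt_le s ha hb
  have h0 : 0 ≤ ∑ i ∈ s, √(a i) * √(b i) :=
    Finset.sum_nonneg fun i _ => mul_nonneg (Real.sqrt_nonneg _) (Real.sqrt_nonneg _)
  rw [h1]
  have h3 := pow_le_pow_left₀ h0 h2 2
  rw [mul_pow, Real.sq_sqrt (Finset.sum_nonneg fun i _ => ha i),
    Real.sq_sqrt (Finset.sum_nonneg fun i _ => hb i)] at h3
  exact h3

/-- Minkowski's inequality in `ℓ^2` for a finite sum of vectors, in squared form. -/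
lemma minkowski_sq {ι κ : Type*} (s : Finset ι) (t : Finset κ) (V : ι → κ → ℝ) :
    ∑ w ∈ t, (∑ y ∈ s, V y w) ^ 2 ≤ (∑ y ∈ s, √(∑ w ∈ t, V y w ^ 2)) ^ 2 := by
  have h1 : ∑ w ∈ t, (∑ y ∈ s, V y w) ^ 2 = ∑ y ∈ s, ∑ y' ∈ s, ∑ w ∈ t, V y w * V y' w := by
    have h : ∀ w ∈ t, (∑ y ∈ s, V y w) ^ 2 = ∑ y ∈ s, ∑ y' ∈ s, V y w * V y' w := by
      intro w _
      rw [pow_two, Finset.sum_mul_sum]
    rw [Finset.sum_congr rfl h, Finset.sum_comm]
    apply Finset.sum_congr rfl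
    intro y _
    rw [Finset.sum_comm]
  rw [h1, pow_two, Finset.sum_mul_sum]
  apply Finset.sum_le_sum
  intro y _
  apply Finset.sum_le_sum
  intro y' _
  exact Real.sum_mul_le_sqrt_mul_sqrt t (V y) (V y')

lemma first_factor (n M : ℕ) (hM : n ≤ M) (f0 : ℕ → ℝ) (F2 : ℕ → ℕ → ℝ) :
    (∑ x ∈ range (2 ^ M), √(∑ z ∈ range (2 ^ n), |Fv n f0 F2 z x| ^ 3)) ^ 2 ≤
      (∑ x ∈ range (2 ^ n), |f0 x| ^ 3) * normCube n F2 := by
  have h1 : ∑ x ∈ range (2 ^ M), √(∑ z ∈ range (2 ^ n), |Fv n f0 F2 z x| ^ 3) =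
      ∑ x ∈ range (2 ^ n), √(|f0 x| ^ 3 * ∑ z ∈ range (2 ^ n), |F2 z x| ^ 3) := by
    symm
    apply Finset.sum_subset_zero_on_sdiff (range_pow_subset hM)
    · intro x hx
      rw [Finset.mem_sdiff, mem_range, mem_range] at hx
      unfold Fv
      simp [if_neg hx.2]
    · intro x hx
      rw [mem_range] at hx
      congr 1
      rw [Finset.mul_sum]
      apply Finset.sum_congr rfl
      intro z _
      unfold Fv
      rw [if_pos hx, abs_mul, mul_pow]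
  rw [h1]
  have h2 := sum_sqrt_mul_sq_le (range (2 ^ n)) (fun x => |f0 x| ^ 3)
    (fun x => ∑ z ∈ range (2 ^ n), |F2 z x| ^ 3) (fun x => pow_nonneg (abs_nonneg _) 3)
    (fun x => Finset.sum_nonneg fun z _ => pow_nonneg (abs_nonneg _) 3)
  have h3 : ∑ x ∈ range (2 ^ n), ∑ z ∈ range (2 ^ n), |F2 z x| ^ 3 = normCube n F2 := by
    unfold normCube
    rw [Finset.sum_comm]
  rw [h3] at h2
  exact h2

lemma second_factor (n M : ℕ) (hM : n ≤ M) (g0 : ℕ → ℝ) (F1 : ℕ → ℕ → ℝ) :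
    ∑ w ∈ range (2 ^ M),
        (∑ z ∈ range (2 ^ n), |Gv n g0 F1 z w| * √|Gv n g0 F1 z w|) ^ 2 ≤
      (∑ y ∈ range (2 ^ n), |g0 y| ^ 3) * normCube n F1 := by
  set D : ℕ → ℕ → ℝ := fun y z => |g0 y * F1 y z| * √|g0 y * F1 y z| with hD
  have hD2 : ∀ y z, D y z ^ 2 = |g0 y| ^ 3 * |F1 y z| ^ 3 := by
    intro y z
    rw [hD]
    simp only
    rw [mul_pow, Real.sq_sqrt (abs_nonneg _), abs_mul]
    ring
  have h1 : ∑ w ∈ range (2 ^ M),
        (∑ z ∈ range (2 ^ n), |Gv n g0 F1 z w| * √|Gv n g0 F1 z w|) ^ 2 =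
      ∑ w ∈ range (2 ^ n), (∑ y ∈ range (2 ^ n), D y (w ^^^ y)) ^ 2 := by
    symm
    apply Finset.sum_subset_zero_on_sdiff (range_pow_subset hM)
    · intro w hw
      rw [Finset.mem_sdiff, mem_range, mem_range] at hw
      unfold Gv
      simp [if_neg hw.2]
    · intro w hw
      rw [mem_range] at hw
      congr 1
      rw [← sum_xor n hw (fun y => D y (w ^^^ y))]
      apply Finset.sum_congr rfl
      intro z _
      unfold Gv
      rw [if_pos hw, Nat.xor_xor_cancel_left, Nat.xor_comm w z]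
  rw [h1]
  have h2 := minkowski_sq (range (2 ^ n)) (range (2 ^ n)) (fun y w => D y (w ^^^ y))
  have h3 : ∀ y ∈ range (2 ^ n), √(∑ w ∈ range (2 ^ n), D y (w ^^^ y) ^ 2) =
      √(|g0 y| ^ 3 * ∑ z ∈ range (2 ^ n), |F1 y z| ^ 3) := by
    intro y hy
    rw [mem_range] at hy
    congr 1
    rw [Finset.mul_sum, ← sum_xor n hy (fun z => |g0 y| ^ 3 * |F1 y z| ^ 3)]
    apply Finset.sum_congr rfl
    intro w _
    rw [hD2, Nat.xor_comm]
  rw [Finset.sum_congr rfl h3] at h2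
  have h4 := sum_sqrt_mul_sq_le (range (2 ^ n)) (fun y => |g0 y| ^ 3)
    (fun y => ∑ z ∈ range (2 ^ n), |F1 y z| ^ 3) (fun x => pow_nonneg (abs_nonneg _) 3)
    (fun x => Finset.sum_nonneg fun z _ => pow_nonneg (abs_nonneg _) 3)
  exact h2.trans h4

/-- The main estimate when `F₀` is an elementary tensor. -/
theorem form_bound_tensor0 (n : ℕ) (S : Finset ℕ) (ε : ℕ → ℝ)
    (hS : ∀ k ∈ S, 1 ≤ k) (hε : ∀ k ∈ S, |ε k| ≤ 1) (f0 g0 : ℕ → ℝ) (F1 F2 : ℕ → ℕ → ℝ) :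
    |dyadicForm n S ε (fun x y => f0 x * g0 y) F1 F2| ^ 3 ≤
      2038431744 * (normCube n (fun x y => f0 x * g0 y) * normCube n F1 * normCube n F2) := by
  set M := n + S.sup id with hMdef
  have hM : n ≤ M := Nat.le_add_right _ _
  set S' := S.image fun k => k - 1 with hS'
  set e : ℕ → ℝ := fun j => ε (j + 1) with he
  rw [dyadicForm_one_tensor n M hM S ε hS, normCube_tensor]
  have hS'M : ∀ j ∈ S', j < M := by
    intro j hj
    rw [hS', Finset.mem_image] at hj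
    obtain ⟨k, hk, rfl⟩ := hj
    have h1 := hS k hk
    have h2 : k ≤ S.sup id := Finset.le_sup (f := id) hk
    omega
  have he1 : ∀ j ∈ S', |e j| ≤ 1 := by
    intro j hj
    rw [hS', Finset.mem_image] at hj
    obtain ⟨k, hk, rfl⟩ := hj
    have h1 := hS k hk
    have h2 : k - 1 + 1 = k := Nat.sub_add_cancel h1
    rw [he]
    simp only
    rw [h2]
    exact hε k hk
  have hvv := vv_bound M (2 ^ n) S' e he1 hS'M (Fv n f0 F2) (Gv n g0 F1)
  have hf := first_factor n M hM f0 F2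
  have hs := second_factor n M hM g0 F1
  have hs0 : 0 ≤ ∑ w ∈ range (2 ^ M),
      (∑ z ∈ range (2 ^ n), |Gv n g0 F1 z w| * √|Gv n g0 F1 z w|) ^ 2 :=
    Finset.sum_nonneg fun w _ => sq_nonneg _
  have hA : 0 ≤ ∑ x ∈ range (2 ^ n), |f0 x| ^ 3 :=
    Finset.sum_nonneg fun x _ => pow_nonneg (abs_nonneg _) 3
  have hN2 : 0 ≤ normCube n F2 :=
    Finset.sum_nonneg fun x _ => Finset.sum_nonneg fun y _ => pow_nonneg (abs_nonneg _) 3
  have hprod := mul_le_mul hf hs hs0 (mul_nonneg hA hN2)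
  calc _ ≤ 2038431744 * ((∑ x ∈ range (2 ^ M),
          √(∑ z ∈ range (2 ^ n), |Fv n f0 F2 z x| ^ 3)) ^ 2 *
        ∑ x ∈ range (2 ^ M),
          (∑ z ∈ range (2 ^ n), |Gv n g0 F1 z x| * √|Gv n g0 F1 z x|) ^ 2) := hvv
    _ ≤ 2038431744 * ((∑ x ∈ range (2 ^ n), |f0 x| ^ 3) * normCube n F2 *
          ((∑ y ∈ range (2 ^ n), |g0 y| ^ 3) * normCube n F1)) :=
        mul_le_mul_of_nonneg_left hprod (by norm_num)
    _ = _ := by ring

/-- The one-tensor bound, when `F₀` is an elementary tensor on the box. -/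
theorem form_bound_one_tensor (n : ℕ) (S : Finset ℕ) (ε : ℕ → ℝ)
    (hS : ∀ k ∈ S, 1 ≤ k) (hε : ∀ k ∈ S, |ε k| ≤ 1) (F0 F1 F2 : ℕ → ℕ → ℝ)
    (h0 : ∃ f g : ℕ → ℝ, ∀ x < 2 ^ n, ∀ y < 2 ^ n, F0 x y = f x * g y) :
    |dyadicForm n S ε F0 F1 F2| ^ 3 ≤
      2038431744 * (normCube n F0 * normCube n F1 * normCube n F2) := by
  obtain ⟨f0, g0, h0⟩ := h0
  rw [dyadicForm_congr n S ε h0 (fun x _ y _ => rfl) (fun x _ y _ => rfl), normCube_congr n h0]
  exact form_bound_tensor0 n S ε hS hε f0 g0 F1 F2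

end Vale.Agent.Lib.P075
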